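import Crest.Agent.R166.LT.Tail

/-!
# R166/LT/Two: the two-cost tail bound for diagonal entries
-/

set_option autoImplicit false
set_option linter.unusedSectionVars false

open MeasureTheory ProbabilityTheory Filter Topology Complex
open scoped ENNReal NNReal BigOperators Matrix

noncomputable section

namespace Crest.Agent.R166

variable {q : ℕ}

theorem lt_two (hK : StKit) (hSt : StStab) {Γ ε K CG : ℝ} (hC : LtC q Γ ε K CG) (hq : 2 ≤ q) :
    ∃ C : ℝ, 1 ≤ C ∧ ∀ (π : Measure II) [IsProbabilityMeasure π] (s : ℝ) (z : ℂ) (T x : ℝ)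
      (V : Type) [Fintype V] [DecidableEq V], 0 < z.im → 1 ≤ T → z.im ≤ T → 0 ≤ x →
      ∫ c, ind (IsSimple c.1 ∧ bad s z T (1 / 50) c ≤ x) *
          frac (fun v => 2 * Γ * T < (Gr (Hm s c) z v v).im) ∂cfgLaw V q π ≤
        C * (x + T ^ 3 / (Fintype.card V * z.im)) ^ 2 := by
  obtain ⟨CS, hS⟩ := hSt q
  have hCG := hC.hCG
  have hK0 := hC.hK
  have hΓ := hC.hΓ
  set L := 1 + 5000 * |CS| + 4 * K with hL
  have hL1 : 1 ≤ L := by have := abs_nonneg CS; linarith
  have hA : 0 ≤ CG * (2 * ((q : ℝ) + 1) ^ 2 * L ^ 2) := by positivity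
  refine ⟨CG * (2 * ((q : ℝ) + 1) ^ 2 * L ^ 2) + (CG + 3) ^ 2, by nlinarith,
    fun π _ s z T x V _ _ hz hT hzT hx => ?_⟩
  have := hK.law_le q π V
  set u := T ^ 3 / (Fintype.card V * z.im) with hu
  have hu0 : 0 ≤ u := by positivity
  by_cases hn : (Fintype.card V : ℝ) < CG + 3
  · rcases isEmpty_or_nonempty V with hV | hV
    · simp only [p_frac_eq_zero fun v : V => (IsEmpty.false v).elim, mul_zero, integral_zero]
      positivity
    have hn1 : (1 : ℝ) ≤ Fintype.card V := by exact_mod_cast Fintype.card_pos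
    have h1 := lt_inv_le hn1 le_rfl hz hzT hT one_pos le_rfl
    rw [one_pow, mul_one, ← hu, div_le_iff₀ (by linarith)] at h1
    have h2 : 1 ≤ (CG + 3) * (x + u) := by nlinarith
    refine le_trans (lt_int_le _ zero_le_one
      (fun c => mul_nonneg (lt_ind_nonneg _) (p_frac_nonneg _))
      fun c => mul_le_one₀ (lt_ind_le_one _) (p_frac_nonneg _) (p_frac_le_one _)) ?_
    nlinarith [mul_nonneg hA (sq_nonneg (x + u))]
  push Not at hn
  have hn4 : 4 ≤ Fintype.card V := by
    have : (4 : ℝ) ≤ Fintype.card V := by linarith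
    exact_mod_cast this
  obtain ⟨N, hN⟩ : ∃ N, Fintype.card V = N + 2 := ⟨Fintype.card V - 2, by omega⟩
  have hN' : (Fintype.card V : ℝ) = N + 2 := by exact_mod_cast hN
  have hN2 : (2 : ℝ) ≤ N := by exact_mod_cast (by omega : 2 ≤ N)
  have := hK.law_le q π (Fin N)
  have hv : T ^ 3 / (N * z.im) ≤ 2 * u := by
    rw [hu, hN', mul_div_assoc', div_le_div_iff₀ (by positivity) (by positivity)]
    have : 0 ≤ T ^ 3 * z.im := by positivity
    nlinarith
  have hv0 : 0 ≤ T ^ 3 / (N * z.im) := by positivity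
  set x' := x + CS * T ^ 3 / (Fintype.card (Fin N) * z.im * (1 / 50) ^ 2) with hx'
  set p := K * (((1 + 1 / 50) * T) ^ 3 / (N * z.im)) with hp
  have hp0 : 0 ≤ p := by positivity
  have hxp : x' + p ≤ L * (x + u) := by
    have h1 : CS * T ^ 3 / (Fintype.card (Fin N) * z.im * (1 / 50) ^ 2) =
        2500 * (CS * (T ^ 3 / (N * z.im))) := by
      rw [Fintype.card_fin]; field_simp; norm_num
    have h2 : CS * (T ^ 3 / (N * z.im)) ≤ |CS| * (2 * u) :=
      mul_le_mul (le_abs_self _) hv hv0 (abs_nonneg _)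
    have h3 : p = (1 + 1 / 50) ^ 3 * (K * (T ^ 3 / (N * z.im))) := by rw [hp]; ring
    have h4 : K * (T ^ 3 / (N * z.im)) ≤ K * (2 * u) := by gcongr
    have h5 : 0 ≤ K * (T ^ 3 / (N * z.im)) := by positivity
    have h6 : x ≤ L * x := le_mul_of_one_le_left hx hL1
    rw [hx', h1, h3, mul_add L, hL]
    rw [hL] at h6
    nlinarith
  have hR := (lt_OK_G (q := q) hK s z (2 * Γ * T)).and
    (A := fun _ _ _ c => bad s z T (1 / 50) c ≤ x) (fun V V' _ _ _ _ e c => by rw [hK.inv_bad])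
    fun V _ _ => measurableSet_le (hK.meas_bad q s z T _ V) measurable_const
  have h1 := (hC.gx π (Fin N) V _ hR (by simp; omega) (by simp [hN])
    (fun _ c α => bad s z ((1 + 1 / 50) * T) (1 / 50 + 1 / 50) c ≤ x' ∧
      (∀ k, LtF s z ((1 + 1 / 50) * T) (1 / 50 + 1 / 50) ε c α k) ∧
      ¬ LtA s z ((1 + 1 / 50) * T) (1 / 50 + 1 / 50) ε c α)
    (fun _ => 2 * ((q : ℝ) + 1) ^ 2 * (L * (x + u)) ^ 2) (integrable_const _)
    (fun i c α w hd h => ?_) fun i c => ?_).2 (by rw [Fintype.card_fin]; linarith)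
  · have h2 : ∀ c : Cfg V q, ind (IsSimple c.1 ∧ bad s z T (1 / 50) c ≤ x) *
        frac (fun v => 2 * Γ * T < (Gr (Hm s c) z v v).im) = ind (IsSimple c.1) *
        frac fun h : HE V q => bad s z T (1 / 50) c ≤ x ∧ 2 * Γ * T < (Gr (Hm s c) z h.1 h.1).im :=
      fun c => by
        rw [lt_frac_const_and, lt_ind_and, mul_assoc,
          lt_frac_fst fun v => 2 * Γ * T < (Gr (Hm s c) z v v).im]
    simp only [h2]
    refine h1.trans ((mul_le_mul_of_nonneg_left (lt_int_const_le _ (by positivity))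
      (by linarith)).trans ?_)
    nlinarith [mul_nonneg (sq_nonneg (CG + 3)) (sq_nonneg (x + u))]
  · have h3 : Γ * ((1 + 1 / 50) * T) ≤ 2 * Γ * T := by nlinarith
    refine ⟨?_, fun k => ?_, fun hA => ?_⟩
    · exact ((hS s z (Fin N) c T (1 / 50) (1 / 50) hz hzT hT (by norm_num) (by norm_num)
        (by norm_num) (by norm_num) (by simp; omega)).1 α w hd).2.2.trans (add_le_add h.1 le_rfl)
    · by_contra hF
      exact h.2.not_ge ((hC.succ.d1 s z _ c α w _ _ hz (by norm_num) (by norm_num) hd k hF).trans h3)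
    · exact h.2.not_ge ((hC.succ.d2 s z _ c α w _ _ hz (by norm_num) (by norm_num) hd hA).trans h3)
  · rw [lt_frac_const_and]
    by_cases hb : bad s z ((1 + 1 / 50) * T) (1 / 50 + 1 / 50) c ≤ x'
    · rw [lt_ind_pos hb, one_mul]
      refine (lt_fail_two hq (hC.ward s z (Fin N) c _ _ N hz (by positivity) (by norm_num)
        (by norm_num) (by linarith) (by simp))).trans ?_
      have h4 : 0 ≤ bad s z ((1 + 1 / 50) * T) (1 / 50 + 1 / 50) c := p_frac_nonneg _
      gcongr
      linarith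
    · rw [lt_ind_neg hb, zero_mul]; positivity

end Crest.Agent.R166
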