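import Crest.Agent.R166.LT.Rec
import Crest.Agent.R166.LT.Two

/-!
# R166/LT/Main: the tail estimates `StTB`
-/

set_option autoImplicit false
set_option linter.unusedSectionVars false

open MeasureTheory ProbabilityTheory Filter Topology Complex
open scoped ENNReal NNReal BigOperators Matrix

noncomputable section

namespace Crest.Agent.R166

theorem stTB (hK : StKit) (hGX : StGX) (hSX : StSX) (hW : StW) (hSt : StStab) (hGL : StGL)
    (hSW : StSW) (hZ : StZC) : StTB := by
  intro q hq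
  obtain ⟨Γ, ε, K, CG, hC⟩ := lt_consts hGX hW hGL hZ q hq
  obtain ⟨CD, hCD, hD⟩ := lt_dec hK hSX hW hSW hZ q
  obtain ⟨C₂, hC₂, h₂⟩ := lt_two hK hSt hC hq
  have hCG := hC.hCG
  have hK0 := hC.hK
  have hΓ := hC.hΓ
  set a := 2 + 2 * ((q : ℝ) + 1) ^ 2 + 6 * (q + 1) with ha
  set b := 2500 * CD * (1 + 2 * (q + 1)) + 2 * (q + 1) * (2 * K + CG) +
    2 * (((q : ℝ) + 1) ^ 2 * K + CG) with hb
  have ha0 : 2 ≤ a := by rw [ha]; nlinarith [Nat.cast_nonneg (α := ℝ) q]
  have hb0 : 0 ≤ b := by positivity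
  set Cp := a + 2 * b + CD + (K + CG) + C₂ with hCp
  refine ⟨Cp, by linarith, fun M => ?_⟩
  set CT := Γ * (1 + 2 * (M + 1) ^ 2 + 2 * (q + 1) * Γ) with hCT
  have hCT2 : 2 * Γ ≤ CT := by
    have h1 : 2 ≤ 1 + 2 * (M + 1) ^ 2 + 2 * (q + 1) * Γ := by
      nlinarith [Nat.cast_nonneg (α := ℝ) q, sq_nonneg (M + 1)]
    rw [hCT]; nlinarith
  have hG : ∀ (π : Measure II) [IsProbabilityMeasure π] (s : ℝ) (z : ℂ) (V : Type) [Fintype V]
      [DecidableEq V] (A : Cfg V q → Prop) (t t' : ℝ), MeasurableSet {c | A c} → t ≤ t' →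
      ltE (cfgLaw V q π) A (fun c => frac fun v => t' < (Gr (Hm s c) z v v).im) ≤
        ltE (cfgLaw V q π) A (fun c => frac fun v => t < (Gr (Hm s c) z v v).im) := by
    intro π _ s z V _ _ A t t' hA ht
    have := hK.law_le q π V
    have h1 := ltE_mono (cfgLaw V q π) (A := A) hA
      (f := fun c => frac fun v => t' < (Gr (Hm s c) z v v).im)
      (g := fun c => frac fun v => t < (Gr (Hm s c) z v v).im)
      (ltU_frac fun v => measurableSet_lt measurable_const
        (Complex.measurable_im.comp (hK.meas_Gr q s z V v v))) (fun _ => p_frac_nonneg _)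
      zero_le_one fun c hc => ⟨hc, by rw [one_mul]; exact p_frac_mono fun v hv => ht.trans_lt hv⟩
    rwa [one_mul] at h1
  refine ⟨CT, by linarith, fun π _ s z hs hs' hz hM => ⟨?_, fun T x V _ _ hT hzT hx => ?_⟩⟩
  · intro n₁ lm T₁ θ Ω hL hn₁ hT₁ hzT hθ hθ'
    refine ⟨fun J => lt_iter hK π hz hθ hT₁ (by linarith) (by linarith) hθ' ?_ J, ?_, ?_⟩
    · intro l T B V _ _ hl hT hn hB0 hB
      refine (lt_step hK hC hD hq π hL hz hn₁ hθ hl hT₁ hzT hT hs hs' hM le_rfl V hn hB).trans ?_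
      have : 0 ≤ T := by linarith
      rw [← ha, ← hb]
      gcongr <;> linarith
    · intro l T e V _ _ hl hn hT he he'
      have h1 := hD π s z n₁ lm T₁ θ Ω hL hz hn₁ l T e V hl hn (hT₁.trans hT) (hzT.trans hT) he
        (by linarith)
      have := hK.law_le q π V
      have h3 : ltE (cfgLaw V q π) (Ω (l + 1) V) (fun c => bad s z T (1 / 50) c ^ 2) ≤
          1 * betaW π s z (Ω (l + 1)) T V :=
        ltE_mono _ (hL.meas _ V) (ltU_bad hK s z T (1 / 50)) (fun _ => sq_nonneg _) zero_le_one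
          fun c hc => ⟨hc, by
            rw [sq]; exact mul_le_mul_of_nonneg_right (p_frac_le_one _) (p_frac_nonneg _)⟩
      have h4 : 0 ≤ betaW π s z (Ω (l + 1)) T V := ltE_nonneg _ _ fun _ => p_frac_nonneg _
      have h5 : 0 ≤ T ^ 3 / (n₁ * z.im * e ^ 2) := by
        have : 0 ≤ T := by linarith
        positivity
      refine h1.trans ?_
      have h6 := mul_le_mul_of_nonneg_right (by linarith : 2 ≤ Cp) h4
      have h7 := mul_le_mul_of_nonneg_right (by linarith : CD ≤ Cp) h5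
      linarith
    · intro l T V V' _ _ _ _ hl hn hV hT
      have hT0 : 0 ≤ T := by linarith
      have h1 := lt_tail_G hK hC π hL hz hn₁ hl (hT₁.trans hT) (hzT.trans hT) V V' hn hV
      have h4 : 0 ≤ betaW π s z (Ω (l + 1)) T V := ltE_nonneg _ _ fun _ => p_frac_nonneg _
      have h5 : 0 ≤ T ^ 3 / (n₁ * z.im) := by positivity
      refine ((hG π s z V' _ (Γ * T) (CT * T) (hL.meas l V')
        (mul_le_mul_of_nonneg_right (by linarith) hT0)).trans h1).trans ?_
      have h6 := mul_le_mul_of_nonneg_right (by linarith : 1 ≤ Cp) h4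
      have h7 := mul_le_mul_of_nonneg_right (by linarith : K + CG ≤ Cp) h5
      change betaW π s z (Ω (l + 1)) T V + _ ≤ _
      linarith
  · have hT0 : 0 ≤ T := by linarith
    have hm : MeasurableSet {c : Cfg V q | IsSimple c.1 ∧ bad s z T (1 / 50) c ≤ x} :=
      (measurable_fst (MeasurableSet.of_discrete (s := {σ : Pairing V q | IsSimple σ}))).inter
        (measurableSet_le (hK.meas_bad q s z T _ V) measurable_const)
    refine ((hG π s z V _ (2 * Γ * T) (CT * T) hm (mul_le_mul_of_nonneg_right hCT2 hT0)).trans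
      (h₂ π s z T x V hz hT hzT hx)).trans ?_
    exact mul_le_mul_of_nonneg_right (by linarith) (sq_nonneg _)

end Crest.Agent.R166
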