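import Crest.Agent.R166.LL.Iface
import Crest.Agent.R166.P.Basic

/-!
# R166/LT/Avg: independent uniform coordinates, union bounds, indicators
-/

set_option autoImplicit false
set_option linter.unusedSectionVars false

open MeasureTheory ProbabilityTheory Filter Topology Complex
open scoped ENNReal NNReal BigOperators Matrix

noncomputable section

namespace Crest.Agent.R166

theorem lt_ind_nonneg (p : Prop) : 0 ≤ ind p := by unfold ind; split_ifs <;> norm_num

theorem lt_ind_le_one (p : Prop) : ind p ≤ 1 := by unfold ind; split_ifs <;> norm_num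

theorem lt_ind_pos {p : Prop} (h : p) : ind p = 1 := by simp [ind, h]

theorem lt_ind_neg {p : Prop} (h : ¬ p) : ind p = 0 := by simp [ind, h]

theorem lt_ind_mono {p p' : Prop} (h : p → p') : ind p ≤ ind p' := by
  by_cases hp : p
  · rw [lt_ind_pos hp, lt_ind_pos (h hp)]
  · rw [lt_ind_neg hp]; exact lt_ind_nonneg _

theorem lt_ind_and (p p' : Prop) : ind (p ∧ p') = ind p * ind p' := by
  by_cases hp : p <;> by_cases hp' : p' <;> simp [ind, hp, hp']

theorem lt_ind_congr {p p' : Prop} (h : p ↔ p') : ind p = ind p' := by rw [propext h]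

theorem lt_abs_ind_le (p : Prop) : |ind p| ≤ 1 := by
  rw [abs_of_nonneg (lt_ind_nonneg p)]; exact lt_ind_le_one p

section
variable {ι H : Type} [Fintype ι] [Fintype H]

theorem lt_frac_eq (p : H → Prop) : frac p = avg fun i => ind (p i) := rfl

theorem lt_frac_const_and (a : Prop) (p : H → Prop) :
    frac (fun i => a ∧ p i) = ind a * frac p := by
  rw [lt_frac_eq, lt_frac_eq, ← p_avg_mul]
  simp only [lt_ind_and]

theorem lt_frac_exists {κ : Type} (s : Finset κ) (p : κ → H → Prop) :
    frac (fun i => ∃ k ∈ s, p k i) ≤ ∑ k ∈ s, frac (p k) := by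
  simp only [lt_frac_eq]
  rw [← p_avg_sum]
  refine p_avg_mono fun i => ?_
  by_cases h : ∃ k ∈ s, p k i
  · obtain ⟨k, hk, hp⟩ := h
    refine le_trans (lt_ind_le_one _) ?_
    rw [← lt_ind_pos hp]
    exact Finset.single_le_sum (f := fun k => ind (p k i)) (fun _ _ => lt_ind_nonneg _) hk
  · rw [lt_ind_neg h]; exact Finset.sum_nonneg fun _ _ => lt_ind_nonneg _

theorem lt_frac_exists_le {κ : Type} [Fintype κ] {p : κ → H → Prop} {b : ℝ}
    (h : ∀ k, frac (p k) ≤ b) : frac (fun i => ∃ k, p k i) ≤ Fintype.card κ * b := by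
  refine le_trans (p_frac_mono fun i ⟨k, hk⟩ => ⟨k, Finset.mem_univ k, hk⟩)
    ((lt_frac_exists Finset.univ p).trans ?_)
  simpa using Finset.sum_le_card_nsmul Finset.univ (fun k => frac (p k)) b fun k _ => h k

variable [DecidableEq ι]

/-- resampling one coordinate does not change the average -/
theorem lt_avg_update [Nonempty H] (k : ι) (f : (ι → H) → ℝ) :
    avg f = avg fun α : ι → H => avg fun h => f (Function.update α k h) := by
  have e : Function.Involutive fun p : (ι → H) × H => (Function.update p.1 k p.2, p.1 k) := by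
    rintro ⟨α, h⟩; simp
  rw [← p_avg_prod (fun p : (ι → H) × H => f (Function.update p.1 k p.2))]
  have := p_avg_equiv e.toPerm (fun p : (ι → H) × H => f p.1)
  simp only [Function.Involutive.coe_toPerm] at this
  rw [this, p_avg_prod]
  simp only [p_avg_const]

/-- a conditional bound given the other coordinates, on an event not depending on coordinate `k` -/
theorem lt_frac_cond (k : ι) {P Q : (ι → H) → Prop} {b : ℝ} (hb : 0 ≤ b)
    (hP : ∀ α h, P (Function.update α k h) → P α)
    (hQ : ∀ α, frac (fun h => Q (Function.update α k h)) ≤ b) :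
    frac (fun α => P α ∧ Q α) ≤ frac P * b := by
  cases isEmpty_or_nonempty H with
  | inl _ =>
    have : IsEmpty (ι → H) := ⟨fun α => IsEmpty.false (α k)⟩
    rw [p_frac_eq_zero fun α => (IsEmpty.false α).elim]
    exact mul_nonneg (p_frac_nonneg _) hb
  | inr _ =>
    rw [lt_frac_eq, lt_avg_update k, mul_comm, lt_frac_eq, ← p_avg_mul]
    refine p_avg_mono fun α => ?_
    by_cases h : P α
    · rw [lt_ind_pos h, mul_one]
      exact le_trans (p_frac_mono fun h hh => hh.2) (hQ α)
    · rw [lt_ind_neg h, mul_zero]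
      exact (p_frac_eq_zero fun x hh => h (hP α x hh.1)).le

theorem lt_frac_cond1 (k : ι) {Q : (ι → H) → Prop} {b : ℝ} (hb : 0 ≤ b)
    (hQ : ∀ α, frac (fun h => Q (Function.update α k h)) ≤ b) : frac Q ≤ b := by
  have := lt_frac_cond k (P := fun _ => True) hb (fun _ _ _ => trivial) hQ
  refine le_trans (p_frac_mono fun α h => ⟨trivial, h⟩) (this.trans ?_)
  exact mul_le_of_le_one_left hb (p_frac_le_one _)

theorem lt_frac_eval (k : ι) (p : H → Prop) : frac (fun α : ι → H => p (α k)) ≤ frac p :=
  lt_frac_cond1 k (p_frac_nonneg _) fun α => by simp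

theorem lt_frac_eval2 {j k : ι} (hjk : j ≠ k) (p p' : H → Prop) :
    frac (fun α : ι → H => p (α j) ∧ p' (α k)) ≤ frac p * frac p' := by
  refine le_trans (lt_frac_cond k (P := fun α => p (α j)) (Q := fun α => p' (α k))
    (p_frac_nonneg p') (fun α h hh => by simpa [Function.update_of_ne hjk] using hh)
    fun α => by simp) ?_
  exact mul_le_mul_of_nonneg_right (lt_frac_eval j p) (p_frac_nonneg _)

end

theorem lt_frac_pair {H : Type} [Fintype H] (p p' : H → Prop) :
    frac (fun x : H × H => p x.1 ∧ p' x.2) = frac p * frac p' := by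
  rw [p_frac_prod]
  simp only [lt_frac_const_and]
  rw [mul_comm, lt_frac_eq p, ← p_avg_mul]
  simp only [mul_comm]

theorem lt_frac_fst {V : Type} [Fintype V] {q : ℕ} (p : V → Prop) :
    frac (fun h : HE V q => p h.1) = frac p := by
  rw [p_frac_prod']
  exact p_avg_const (ι := Fin (q + 1)) (frac p)

theorem lt_frac_sigma {V : Type} [Fintype V] {q : ℕ} (σ : Pairing V q) (p : HE V q → Prop) :
    frac (fun h => p (σ h)) = frac p := p_frac_equiv σ.1 p

end Crest.Agent.R166
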