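import Crest.Agent.R166.LT.Det

/-!
# R166/LT/Succ: bounds at the glued vertex on the success events
-/

set_option autoImplicit false
set_option linter.unusedSectionVars false

open MeasureTheory ProbabilityTheory Filter Topology Complex
open scoped ENNReal NNReal BigOperators Matrix

noncomputable section

namespace Crest.Agent.R166

variable {q : ℕ} {V : Type} [Fintype V] [DecidableEq V]

theorem lt_herm (s : ℝ) (c : Cfg V q) : (Hm s c).IsHermitian := by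
  have h1 : (adj c.1).IsHermitian := by
    ext u v
    simp only [Matrix.conjTranspose_apply, star_trivial, adj, Nat.cast_inj]
    refine Finset.card_bij (fun i _ => (c.1 (v, i)).2) (fun i hi => ?_) (fun i hi j hj h => ?_)
      fun j hj => ?_
    · have h := (Finset.mem_filter.1 hi).2
      refine Finset.mem_filter.2 ⟨Finset.mem_univ _, ?_⟩
      rw [← h, Prod.mk.eta, p_inv]
    · have h1 := (Finset.mem_filter.1 hi).2
      have h2 := (Finset.mem_filter.1 hj).2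
      exact congrArg Prod.snd (p_inj c.1 (Prod.ext (h1.trans h2.symm) h))
    · have h := (Finset.mem_filter.1 hj).2
      refine ⟨(c.1 (u, j)).2, Finset.mem_filter.2 ⟨Finset.mem_univ _, ?_⟩, ?_⟩
      · rw [← h, Prod.mk.eta, p_inv]
      · rw [← h, Prod.mk.eta, p_inv]
  exact h1.add (Matrix.isHermitian_diagonal_of_self_adjoint _ (by ext; simp))

theorem lt_dcp_empty (G : Matrix V V ℂ) (ε : ℝ) {S : Set V} (S' : Set V) (hS : ∀ v, v ∉ S) :
    Dcp G ε S S' := fun x y hx _ => by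
  obtain rfl : x = 0 := funext fun v => hx v (hS v)
  simp [imq]

theorem lt_W_im {κ : Type} (S : Finset κ) {ζ r : ℂ} {Y : κ → ℂ} {T : ℝ} (hζ : 0 < ζ.im)
    (hr : 0 ≤ r.im) (hY : ∀ j, 0 < (Y j).im) {j : κ} (hj : j ∈ S) (hT : hyp (Y j) ≤ T) :
    0 < (ζ + r + ∑ j ∈ S, Y j).im ∧ (ζ + r + ∑ j ∈ S, Y j).im⁻¹ ≤ T := by
  have h1 : (Y j).im ≤ (ζ + r + ∑ j ∈ S, Y j).im := by
    rw [Complex.add_im, Complex.add_im, Complex.im_sum]
    have := Finset.single_le_sum (f := fun j => (Y j).im) (fun k _ => (hY k).le) hj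
    linarith
  exact ⟨(hY j).trans_le h1, ((inv_anti₀ (hY j) h1).trans (lt_inv_le_hyp (hY j))).trans hT⟩

/-- the bounds at the glued vertex -/
structure LtS (q : ℕ) (Γ ε : ℝ) : Prop where
  b : ∀ (s : ℝ) (z : ℂ) (V : Type) [Fintype V] [DecidableEq V] (c : Cfg V q)
    (α : Fin (q + 1) → HE V q) (w : Fin 2 → II) (T e : ℝ), 0 < z.im → 0 ≤ e → e ≤ 1 / 10 →
    Disj c.1 α → ∀ i j, j ≠ i → ¬ LtF s z T e ε c α j → ltB (Yc s z (glueC c α w) (oH V i)) ≤ Γ * T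
  d1 : ∀ (s : ℝ) (z : ℂ) (V : Type) [Fintype V] [DecidableEq V] (c : Cfg V q)
    (α : Fin (q + 1) → HE V q) (w : Fin 2 → II) (T e : ℝ), 0 < z.im → 0 ≤ e → e ≤ 1 / 10 →
    Disj c.1 α → ∀ j, ¬ LtF s z T e ε c α j →
    (Gr (Hm s (glueC c α w)) z (Sum.inr 0) (Sum.inr 0)).im ≤ Γ * T
  d2 : ∀ (s : ℝ) (z : ℂ) (V : Type) [Fintype V] [DecidableEq V] (c : Cfg V q)
    (α : Fin (q + 1) → HE V q) (w : Fin 2 → II) (T e : ℝ), 0 < z.im → 0 ≤ e → e ≤ 1 / 10 →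
    Disj c.1 α → LtA s z T e ε c α →
    (Gr (Hm s (glueC c α w)) z (Sum.inr 0) (Sum.inr 0)).im ≤ Γ * T
  h : ∀ (s : ℝ) (z : ℂ) (V : Type) [Fintype V] [DecidableEq V] (c : Cfg V q)
    (α : Fin (q + 1) → HE V q) (w : Fin 2 → II) (T e b M : ℝ), 0 < z.im → 0 ≤ e → e ≤ 1 / 10 →
    Disj c.1 α → 0 ≤ s → s ≤ 1 → ‖z‖ ≤ M → 0 ≤ b → LtQ s z T e ε b c α → ∀ i,
    hyp (Yc s z (glueC c α w) (oH V i)) ≤ Γ * (T + 2 * (M + 1) ^ 2 * T + 2 * (q + 1) * b)

theorem lt_sep_single {s : ℝ} {z : ℂ} {T e ε : ℝ} {c : Cfg V q} {α : Fin (q + 1) → HE V q}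
    {j : Fin (q + 1)} (h : ¬ LtF s z T e ε c α j) : Sep s z c α {j} ε e := by
  have h := not_not.1 h
  intro k hk
  obtain rfl := Finset.mem_singleton.1 hk
  exact ⟨h.1.1, h.2, fun k hk hk' => (hk' (Finset.mem_singleton.1 hk)).elim⟩

theorem lt_sep_univ {s : ℝ} {z : ℂ} {e ε : ℝ} {c : Cfg V q} {α : Fin (q + 1) → HE V q}
    (h1 : ∀ j, dec s z e c (α j))
    (h2 : ∀ j k, k ≠ j → Dcp (Gr (Hm s c) z) ε (ends c.1 (α k)) (ends c.1 (α j))) :
    Sep s z c α Finset.univ ε e :=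
  fun j _ => ⟨h1 j, lt_dcp_empty _ _ _ (by simp), fun k _ hk => h2 j k hk⟩

theorem lt_succ (hGL : StGL) (hZ : StZC) (q : ℕ) (hq : 2 ≤ q) :
    ∃ Γ ε : ℝ, 2 ≤ Γ ∧ 0 < ε ∧ LtS q Γ ε := by
  obtain ⟨C, ε, hε, hC⟩ := hGL q
  set γ := (|C| * (ε + 1 / 10)) ^ 2 with hγ
  have hle : ∀ e : ℝ, 0 ≤ e → e ≤ 1 / 10 → (C * (ε + e)) ^ 2 ≤ γ := fun e he he' => by
    rw [hγ, ← sq_abs, abs_mul, abs_of_nonneg (by linarith : 0 ≤ ε + e)]
    gcongr
  have hζ : ∀ (s : ℝ) (z : ℂ) (a : II), (z - s * (a : ℝ)).im = z.im := fun s z a => by simp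
  refine ⟨2 + γ, ε, by linarith [sq_nonneg (|C| * (ε + 1 / 10))], hε, ?_, ?_, ?_, ?_⟩
  · intro s z V _ _ c α w T e hz he he' hd i j hji hF
    obtain ⟨r, hr, -, hg⟩ := (hC s z V c α w {j} ε e hz hε.le le_rfl he he' hd (lt_sep_single hF)).1 i
    obtain ⟨h1, h2⟩ := lt_W_im (({j} : Finset _).erase i) (ζ := z - s * (w 0 : ℝ))
      (by rwa [hζ]) hr (fun k => (hZ.pos q s z V c (c.1 (α k)) hz).1) (j := j) (by simp [hji])
      (not_not.1 hF).1.2.2
    exact (lt_close (hZ.pos q s z _ _ _ hz).1 h1 h2 (hg.trans (hle e he he'))).1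
  · intro s z V _ _ c α w T e hz he he' hd j hF
    obtain ⟨r, hr, hg⟩ := (hC s z V c α w {j} ε e hz hε.le le_rfl he he' hd (lt_sep_single hF)).2.1
    obtain ⟨h1, h2⟩ := lt_W_im ({j} : Finset _) (ζ := z - s * (w 0 : ℝ))
      (by rwa [hζ]) hr (fun k => (hZ.pos q s z V c (c.1 (α k)) hz).1) (j := j) (by simp)
      (not_not.1 hF).1.2.2
    exact (lt_close (hZ.posG q s z _ _ _ hz).1 h1 h2 (hg.trans (hle e he he'))).2.1
  · intro s z V _ _ c α w T e hz he he' hd hA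
    obtain ⟨r, hr, hg⟩ := (hC s z V c α w Finset.univ ε e hz hε.le le_rfl he he' hd
      (lt_sep_univ (fun j => (hA.1 j).1) hA.2)).2.1
    obtain ⟨h1, h2⟩ := lt_W_im Finset.univ (ζ := z - s * (w 0 : ℝ))
      (by rwa [hζ]) hr (fun k => (hZ.pos q s z V c (c.1 (α k)) hz).1) (Finset.mem_univ 0)
      (hA.1 0).2.2
    exact (lt_close (hZ.posG q s z _ _ _ hz).1 h1 h2 (hg.trans (hle e he he'))).2.1
  · intro s z V _ _ c α w T e b M hz he he' hd hs hs' hM hb hQ i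
    have hsep := lt_sep_univ hQ.1 fun j k hkj => (hQ.2.2.1 j k hkj.symm).elim (hQ.2.2.2 j k hkj)
      fun hk => hZ.dcp_symm V _ z ε _ _ (lt_herm s c) (hQ.2.2.2 k j hkj.symm hk)
    obtain ⟨r, hr, hr0, hg⟩ := (hC s z V c α w Finset.univ ε e hz hε.le le_rfl he he' hd hsep).1 i
    obtain rfl := hr0 fun _ _ => Finset.mem_univ _
    obtain ⟨j, hj, hjg⟩ : ∃ j, j ≠ i ∧ good s z T e c (α j) := by
      obtain ⟨j, hj, -⟩ := lt_exists_third hq i i
      obtain ⟨k, hk, hkj⟩ := lt_exists_third hq i j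
      exact (hQ.2.2.1 k j hkj).elim (fun h => ⟨k, hk, h⟩) fun h => ⟨j, hj, h⟩
    obtain ⟨h1, h2⟩ := lt_W_im (Finset.univ.erase i) (ζ := z - s * (w 0 : ℝ))
      (by rwa [hζ]) hr (fun k => (hZ.pos q s z V c (c.1 (α k)) hz).1) (j := j) (by simp [hj])
      hjg.2.2
    obtain ⟨h3, -, h4⟩ := lt_close (hZ.pos q s z _ _ _ hz).1 h1 h2 (hg.trans (hle e he he'))
    rw [add_zero] at h1 h2 h4
    have h5 : ‖z - s * (w 0 : ℝ)‖ ≤ M + 1 := by
      refine (norm_sub_le _ _).trans (add_le_add hM ?_)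
      rw [norm_mul, Complex.norm_real, Complex.norm_real, Real.norm_of_nonneg hs, Real.norm_eq_abs]
      exact mul_le_one₀ hs' (abs_nonneg _) (abs_le.2 (w 0).2)
    have h6 := lt_B_sum (Finset.univ.erase i) _ _ (by rw [hζ]; exact hz.le) h5
      (fun k _ => ⟨(hZ.pos q s z V c (c.1 (α k)) hz).1, hQ.2.1 k⟩) hb h1 h2
    have h7 : ((Finset.univ.erase i).card : ℝ) ≤ q + 1 := by
      have := Finset.card_le_univ (Finset.univ.erase i)
      rw [Fintype.card_fin] at this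
      exact_mod_cast this
    have h8 : (0 : ℝ) ≤ 2 + γ := by positivity
    rw [lt_hyp_eq]
    have h9 := mul_le_mul_of_nonneg_left (h6.trans (add_le_add le_rfl
      (mul_le_mul_of_nonneg_right (mul_le_mul_of_nonneg_left h7 zero_le_two) hb))) h8
    linarith

end Crest.Agent.R166
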