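import Crest.Agent.R166.LT.Meas
import Crest.Agent.R166.LT.Succ

/-!
# R166/LT/Dec: edges that are not decoupled
-/

set_option autoImplicit false
set_option linter.unusedSectionVars false

open MeasureTheory ProbabilityTheory Filter Topology Complex
open scoped ENNReal NNReal BigOperators Matrix

noncomputable section

namespace Crest.Agent.R166

variable {q : ℕ}

theorem lt_inv_le {n n₁ η T : ℝ} (hn₁ : 1 ≤ n₁) (hn : n₁ ≤ n) (hη : 0 < η) (hηT : η ≤ T)
    (hT : 1 ≤ T) {ε : ℝ} (hε : 0 < ε) (hε' : ε ≤ 1) : 1 / n ≤ T ^ 3 / (n₁ * η * ε ^ 2) := by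
  have h1 : η * ε ^ 2 ≤ T ^ 3 := by
    have : ε ^ 2 ≤ 1 := pow_le_one₀ hε.le hε'
    have h2 : T ≤ T ^ 3 := le_self_pow₀ hT (by norm_num)
    nlinarith
  rw [div_le_div_iff₀ (by linarith) (by positivity)]
  calc 1 * (n₁ * η * ε ^ 2) = n₁ * (η * ε ^ 2) := by ring
    _ ≤ n * T ^ 3 := mul_le_mul hn h1 (by positivity) (by linarith)
    _ = T ^ 3 * n := by ring

theorem lt_frac_deg {V : Type} [Fintype V] [DecidableEq V] (σ : Pairing V q) :
    frac (fun x : HE V q × HE V q => ¬ (x.2 ≠ x.1 ∧ x.2 ≠ σ x.1)) ≤ 2 / Fintype.card V := by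
  rw [p_frac_prod]
  refine p_avg_le (by positivity) fun a => le_trans (p_frac_le_card (T := {a, σ a})
    (fun b hb => by simp only [Finset.mem_insert, Finset.mem_singleton]; tauto)
    (by exact_mod_cast Finset.card_le_two)) (p_div_HE zero_le_two)

theorem lt_dec (hK : StKit) (hSX : StSX) (hW : StW) (hSW : StSW) (hZ : StZC) (q : ℕ) :
    ∃ C : ℝ, 1 ≤ C ∧ ∀ (π : Measure II) [IsProbabilityMeasure π] (s : ℝ) (z : ℂ) (n₁ lm : ℕ)
      (T₁ θ : ℝ) (Ω : ℕ → FamP q), Lev q s z n₁ lm T₁ θ Ω → 0 < z.im → 1 ≤ n₁ →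
      ∀ (l : ℕ) (T ε : ℝ) (V : Type) [Fintype V] [DecidableEq V], l < lm → n₁ ≤ Fintype.card V →
        1 ≤ T → z.im ≤ T → 0 < ε → ε ≤ 1 / 10 →
        ltE (cfgLaw V q π) (Ω l V) (fun c => frac fun h => ¬ dec s z ε c h) ≤
          2 * ltE (cfgLaw V q π) (Ω (l + 1) V) (fun c => bad s z T (1 / 50) c ^ 2) +
            C * (T ^ 3 / (n₁ * z.im * ε ^ 2)) := by
  obtain ⟨CW, hCW, hw⟩ := lt_ward hW hZ q
  obtain ⟨CS, hCS, hsw⟩ := hSW
  refine ⟨4 * CW * CS ^ 2 + 2, by nlinarith [mul_nonneg hCW (sq_nonneg CS)],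
    fun π _ s z n₁ lm T₁ θ Ω hL hz hn₁ l T ε V _ _ hl hn hT hzT hε hε' => ?_⟩
  have := hK.law_le q π V
  have hn' : (n₁ : ℝ) ≤ Fintype.card V := by exact_mod_cast hn
  have hn₁' : (1 : ℝ) ≤ n₁ := by exact_mod_cast hn₁
  have : Nonempty V := Fintype.card_pos_iff.1 (by omega)
  set ε' := ε / CS with hε'd
  have hε'0 : 0 < ε' := by positivity
  have hε'1 : ε' ≤ ε := div_le_self hε.le hCS
  have hεε : CS * ε' = ε := by rw [hε'd]; field_simp
  set p := CW * T ^ 3 / (Fintype.card V * z.im * ε' ^ 2) with hp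
  set u := T ^ 3 / (n₁ * z.im * ε ^ 2) with hu
  have hpu : p ≤ CW * CS ^ 2 * u := by
    calc p = CW * CS ^ 2 * (T ^ 3 / (Fintype.card V * z.im * ε ^ 2)) := by
          rw [hp, hε'd]; field_simp
      _ ≤ CW * CS ^ 2 * u := by rw [hu]; gcongr
  have hp0 : 0 ≤ p := by positivity
  have hnu : 1 / (Fintype.card V : ℝ) ≤ u := lt_inv_le hn₁' hn' hz hzT hT hε (by linarith)
  -- the function to which `StSX` is applied
  let f : Cfg V q → HE V q → HE V q → ℝ := fun c a b =>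
    ind (Ω (l + 1) V c ∧ ¬ Dcp (Gr (Hm s c) z) ε' (ends c.1 a) (ends c.1 b))
  have hf : ∀ a b, Measurable fun c => f c a b := fun a b => lt_meas_ind ((hL.meas _ V).inter
    (lt_meas_dcp hK s z ε' (fun σ => ends σ a) fun σ => ends σ b).compl)
  have hsx := hSX q π V f hf fun _ _ _ => lt_abs_ind_le _
  let F₁ : Cfg V q → ℝ := fun c =>
    avg fun x : HE V q × HE V q => ind (x.2 ≠ x.1 ∧ x.2 ≠ c.1 x.1) * f c x.1 x.2
  let F₂ : Cfg V q → ℝ := fun c => avg fun x : HE V q × HE V q => ind (x.2 ≠ x.1 ∧ x.2 ≠ c.1 x.1) *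
    f (switchC c x.1 (c.1 x.2)) x.1 (c.1 x.1)
  have hF₁ : LtU F₁ := by
    simp only [F₁, f, ← lt_ind_and]
    exact ltU_frac fun x => lt_meas_pair (p := fun σ c => (x.2 ≠ x.1 ∧ x.2 ≠ σ x.1) ∧
      Ω (l + 1) V c ∧ ¬ Dcp (Gr (Hm s c) z) ε' (ends σ x.1) (ends σ x.2)) fun σ =>
      (MeasurableSet.const _).inter ((hL.meas _ V).inter
        (lt_meas_dcp hK s z ε' (fun _ => ends σ x.1) fun _ => ends σ x.2).compl)
  have hF₂ : LtU F₂ := by
    simp only [F₂, f, ← lt_ind_and]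
    refine ltU_frac fun x => lt_meas_pair (p := fun σ c => (x.2 ≠ x.1 ∧ x.2 ≠ σ x.1) ∧
      Ω (l + 1) V (switch σ x.1 (σ x.2), c.2) ∧ ¬ Dcp (Gr (Hm s (switch σ x.1 (σ x.2), c.2)) z) ε'
        (ends (switch σ x.1 (σ x.2)) x.1) (ends (switch σ x.1 (σ x.2)) (σ x.1))) fun σ =>
      (MeasurableSet.const _).inter ?_
    have hm : Measurable fun c : Cfg V q => ((switch σ x.1 (σ x.2), c.2) : Cfg V q) :=
      measurable_const.prodMk measurable_snd
    exact hm ((hL.meas _ V).inter (lt_meas_dcp hK s z ε' (fun τ => ends τ x.1)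
      fun τ => ends τ (σ x.1)).compl)
  have h1 : ∫ c, F₁ c ∂cfgLaw V q π ≤
      ltE (cfgLaw V q π) (Ω (l + 1) V) (fun c => bad s z T (1 / 50) c ^ 2) + 2 * p := by
    have := lt_lin (cfgLaw V q π) (hL.meas (l + 1) V) (ltU_bad hK s z T (1 / 50)).sq ltU_zero
      ltU_zero (a₁ := 1) (a₂ := 0) (a₃ := 0) (p := 2 * p) (by positivity) hF₁.nonneg fun c => by
        have h2 := lt_fail_pair hZ (hw s z V c T (1 / 50) ε' hz (by linarith) (by norm_num)
          (by norm_num) hε'0) (lt_herm s c)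
        have h3 : F₁ c ≤ ind (Ω (l + 1) V c) * frac fun x : HE V q × HE V q =>
            ¬ Dcp (Gr (Hm s c) z) ε' (ends c.1 x.1) (ends c.1 x.2) := by
          rw [← lt_frac_const_and]
          exact p_avg_mono fun x => mul_le_of_le_one_left (lt_ind_nonneg _) (lt_ind_le_one _)
        have h4 := mul_le_mul_of_nonneg_left h2 (lt_ind_nonneg (Ω (l + 1) V c))
        nlinarith [mul_le_mul_of_nonneg_right (lt_ind_le_one (Ω (l + 1) V c)) hp0]
    simpa only [one_mul, zero_mul, add_zero] using this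
  have h2 : ∀ c, ind (Ω l V c) * frac (fun h => ¬ dec s z ε c h) ≤
      F₁ c + F₂ c + 2 / Fintype.card V := fun c => by
    have h3 : ind (Ω l V c) * frac (fun h => ¬ dec s z ε c h) =
        frac fun x : HE V q × HE V q => Ω l V c ∧ ¬ dec s z ε c x.1 := by
      rw [lt_frac_const_and, p_frac_prod' fun x : HE V q × HE V q => ¬ dec s z ε c x.1]
      exact congrArg _ (p_avg_const (ι := HE V q) _).symm
    rw [h3]
    simp only [F₁, F₂, f, ← lt_ind_and]
    refine le_trans (p_frac_mono fun x hx => ?_) ((p_frac_or _ _).trans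
      (add_le_add (p_frac_or _ _) (lt_frac_deg c.1)))
    by_cases hd : x.2 ≠ x.1 ∧ x.2 ≠ c.1 x.1
    · left
      by_contra hc
      simp only [not_or, not_and, not_not] at hc
      refine hx.2 (hεε ▸ hsw q s z V c x.1 x.2 ε' hz hε'0.le (by linarith) hd.1 hd.2
        (hc.1 hd (hL.mono _ _ _ hx.1)) (hc.2 hd (hL.switch l V c _ _ hl hn hx.1)))
    · exact Or.inr hd
  have h3 : ltE (cfgLaw V q π) (Ω l V) (fun c => frac fun h => ¬ dec s z ε c h) ≤
      ∫ c, F₁ c ∂cfgLaw V q π + ∫ c, F₂ c ∂cfgLaw V q π + 2 / Fintype.card V := by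
    refine (integral_mono_of_nonneg (ae_of_all _ fun c => mul_nonneg (lt_ind_nonneg _)
      (p_frac_nonneg _)) (((hF₁.int _).add (hF₂.int _)).add (integrable_const _))
      (ae_of_all _ h2)).trans ?_
    rw [integral_add' ((hF₁.int _).add (hF₂.int _)) (integrable_const _),
      integral_add' (hF₁.int _) (hF₂.int _)]
    exact add_le_add le_rfl (lt_int_const_le _ (by positivity))
  have h4 : ∫ c, F₂ c ∂cfgLaw V q π = ∫ c, F₁ c ∂cfgLaw V q π := hsx
  have h5 : 2 / (Fintype.card V : ℝ) ≤ 2 * u := by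
    rw [div_eq_mul_one_div]; linarith
  rw [h4] at h3
  nlinarith

end Crest.Agent.R166
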