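import Crest.Agent.R166.LL.Iface

/-!
# R166/LT/Hyp: scalar hyperbolic estimates
-/

set_option autoImplicit false

open MeasureTheory ProbabilityTheory Filter Topology Complex
open scoped ENNReal NNReal BigOperators Matrix

noncomputable section

namespace Crest.Agent.R166

/-- `|Y|² / Im Y = 1 / Im (-1/Y)` -/
def ltB (Y : ℂ) : ℝ := ‖Y‖ ^ 2 / Y.im

theorem lt_ratio {a b : ℂ} {γ : ℝ} (ha : 0 < a.im) (hb : 0 < b.im) (h : gam a b ≤ γ) :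
    a.im ≤ (2 + γ) * b.im ∧ b.im ≤ (2 + γ) * a.im := by
  have h1 : (a.im - b.im) ^ 2 ≤ ‖a - b‖ ^ 2 := by
    have := Complex.abs_im_le_norm (a - b)
    rw [Complex.sub_im] at this
    exact sq_le_sq' (by linarith [neg_abs_le (a.im - b.im)]) (le_trans (le_abs_self _) this)
  rw [gam, div_le_iff₀ (mul_pos ha hb)] at h
  have h2 : (a.im - b.im) ^ 2 ≤ γ * (a.im * b.im) := h1.trans h
  constructor
  · have : a.im * a.im ≤ ((2 + γ) * b.im) * a.im := by nlinarith [sq_nonneg b.im]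
    exact le_of_mul_le_mul_right this ha
  · have : b.im * b.im ≤ ((2 + γ) * a.im) * b.im := by nlinarith [sq_nonneg a.im]
    exact le_of_mul_le_mul_right this hb

theorem lt_ne_zero {a : ℂ} (ha : 0 < a.im) : a ≠ 0 := fun h => by simp [h] at ha

theorem lt_im_inv (a : ℂ) : (-a⁻¹).im = a.im / ‖a‖ ^ 2 := by
  rw [Complex.neg_im, Complex.inv_im, Complex.normSq_eq_norm_sq]; ring

theorem lt_im_inv_pos {a : ℂ} (ha : 0 < a.im) : 0 < (-a⁻¹).im := by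
  rw [lt_im_inv]
  have := norm_pos_iff.2 (lt_ne_zero ha)
  positivity

theorem lt_gam_inv {a b : ℂ} (ha : 0 < a.im) (hb : 0 < b.im) : gam (-a⁻¹) (-b⁻¹) = gam a b := by
  have ha' := lt_ne_zero ha
  have hb' := lt_ne_zero hb
  have h1 : -a⁻¹ - -b⁻¹ = (a - b) / (a * b) := by field_simp; ring
  have h2 := norm_pos_iff.2 ha'
  have h3 := norm_pos_iff.2 hb'
  rw [gam, gam, lt_im_inv, lt_im_inv, h1, norm_div, norm_mul]
  field_simp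

theorem lt_hyp_eq (Y : ℂ) : hyp Y = Y.im⁻¹ + ltB Y := by
  rw [hyp, ltB, add_div, one_div]

theorem lt_B_nonneg {Y : ℂ} (h : 0 < Y.im) : 0 ≤ ltB Y := div_nonneg (sq_nonneg _) h.le

theorem lt_B_le_hyp {Y : ℂ} (h : 0 < Y.im) : ltB Y ≤ hyp Y := by
  rw [lt_hyp_eq]; linarith [inv_pos.2 h]

theorem lt_inv_le_hyp {Y : ℂ} (h : 0 < Y.im) : Y.im⁻¹ ≤ hyp Y := by
  rw [lt_hyp_eq]; linarith [lt_B_nonneg h]

theorem lt_B_eq {Y : ℂ} : ltB Y = ((-Y⁻¹).im)⁻¹ := by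
  rw [lt_im_inv, inv_div, ltB]

/-- consequences of `Y ≈ -1/W` -/
theorem lt_close {Y W : ℂ} {γ T : ℝ} (hY : 0 < Y.im) (hW : 0 < W.im) (hT : W.im⁻¹ ≤ T)
    (h : gam Y (-W⁻¹) ≤ γ) :
    ltB Y ≤ (2 + γ) * T ∧ Y.im ≤ (2 + γ) * T ∧ Y.im⁻¹ ≤ (2 + γ) * ltB W := by
  have hγ : 0 ≤ γ := le_trans (div_nonneg (sq_nonneg _) (mul_pos hY (lt_im_inv_pos hW)).le) h
  have h1 := lt_ratio hY (lt_im_inv_pos hW) h
  have h2 : gam (-Y⁻¹) W ≤ γ := by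
    have := lt_gam_inv hY (lt_im_inv_pos hW)
    rw [inv_neg, inv_inv, neg_neg] at this
    rw [this]; exact h
  have h3 := (lt_ratio (lt_im_inv_pos hY) hW h2).2
  have h4 := lt_im_inv_pos hY
  have h5 := lt_im_inv_pos hW
  have hB : ltB Y ≤ (2 + γ) * T := by
    rw [lt_B_eq]
    calc ((-Y⁻¹).im)⁻¹ ≤ (2 + γ) * W.im⁻¹ := by
          rw [← div_eq_mul_inv, inv_eq_one_div, div_le_div_iff₀ h4 hW]; linarith
      _ ≤ (2 + γ) * T := by gcongr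
  refine ⟨hB, le_trans ?_ hB, ?_⟩
  · rw [ltB, le_div_iff₀ hY, ← sq]
    exact pow_le_pow_left₀ hY.le (le_trans (le_abs_self _) (Complex.abs_im_le_norm Y)) 2
  · rw [lt_B_eq, ← div_eq_mul_inv, inv_eq_one_div, div_le_div_iff₀ hY h5]; linarith [h1.2]

/-- `|W|² / Im W` for a sum -/
theorem lt_B_sum {κ : Type} (S : Finset κ) (ζ : ℂ) (Y : κ → ℂ) {M B T : ℝ} (hζ : 0 ≤ ζ.im)
    (hM : ‖ζ‖ ≤ M) (hY : ∀ j ∈ S, 0 < (Y j).im ∧ ltB (Y j) ≤ B) (hB : 0 ≤ B)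
    (hW : 0 < (ζ + ∑ j ∈ S, Y j).im) (hT : (ζ + ∑ j ∈ S, Y j).im⁻¹ ≤ T) :
    ltB (ζ + ∑ j ∈ S, Y j) ≤ 2 * M ^ 2 * T + 2 * S.card * B := by
  set W := ζ + ∑ j ∈ S, Y j with hWd
  have h1 : ‖∑ j ∈ S, Y j‖ ^ 2 ≤ S.card * ∑ j ∈ S, ‖Y j‖ ^ 2 :=
    le_trans (pow_le_pow_left₀ (norm_nonneg _) (norm_sum_le _ _) 2) sq_sum_le_card_mul_sum_sq
  have h2 : ∑ j ∈ S, ‖Y j‖ ^ 2 ≤ B * W.im := by
    calc ∑ j ∈ S, ‖Y j‖ ^ 2 ≤ ∑ j ∈ S, B * (Y j).im := Finset.sum_le_sum fun j hj => by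
          have := (hY j hj).2
          rwa [ltB, div_le_iff₀ (hY j hj).1] at this
      _ = B * (∑ j ∈ S, Y j).im := by rw [← Finset.mul_sum, Complex.im_sum]
      _ ≤ B * W.im := by
          rw [hWd, Complex.add_im]; gcongr; linarith
  have h3 : ‖W‖ ^ 2 ≤ 2 * M ^ 2 + 2 * ‖∑ j ∈ S, Y j‖ ^ 2 := by
    have h4 : ‖W‖ ≤ M + ‖∑ j ∈ S, Y j‖ := (norm_add_le _ _).trans (by linarith)
    have h5 := pow_le_pow_left₀ (norm_nonneg _) h4 2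
    nlinarith [sq_nonneg (M - ‖∑ j ∈ S, Y j‖)]
  have h6 : 1 ≤ T * W.im := by
    have := mul_le_mul_of_nonneg_right hT hW.le
    rwa [inv_mul_cancel₀ hW.ne'] at this
  rw [ltB, div_le_iff₀ hW]
  have h7 : (S.card : ℝ) * ∑ j ∈ S, ‖Y j‖ ^ 2 ≤ S.card * (B * W.im) := by gcongr
  nlinarith [sq_nonneg M]

end Crest.Agent.R166
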