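import Crest.Agent.R166.LT.Avg
import Crest.Agent.R166.LT.Hyp

/-!
# R166/LT/Det: failure events for independent uniform edges, at a fixed configuration
-/

set_option autoImplicit false
set_option linter.unusedSectionVars false

open MeasureTheory ProbabilityTheory Filter Topology Complex
open scoped ENNReal NNReal BigOperators Matrix

noncomputable section

namespace Crest.Agent.R166

variable {q : ℕ} {V : Type} [Fintype V] [DecidableEq V]

theorem lt_dec_mono (hZ : StZC) {s : ℝ} {z : ℂ} {e e' : ℝ} {c : Cfg V q} {h : HE V q}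
    (hz : 0 < z.im) (he : 0 ≤ e) (hee : e ≤ e') (hd : dec s z e c h) : dec s z e' c h := by
  unfold dec at hd ⊢
  refine hd.trans (mul_le_mul_of_nonneg_right (pow_le_pow_left₀ he hee 2) ?_)
  exact (mul_pos (hZ.pos q s z V c h hz).1 (hZ.pos q s z V c _ hz).1).le

theorem lt_good_mono (hZ : StZC) {s : ℝ} {z : ℂ} {T T' e e' : ℝ} {c : Cfg V q} {h : HE V q}
    (hz : 0 < z.im) (he : 0 ≤ e) (hee : e ≤ e') (hT : T ≤ T') (hd : good s z T e c h) :
    good s z T' e' c h :=
  ⟨lt_dec_mono hZ hz he hee hd.1, hd.2.1.trans hT, hd.2.2.trans hT⟩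

theorem lt_bad_mono {s : ℝ} {z : ℂ} {T T' e : ℝ} (c : Cfg V q) (hT : T ≤ T') :
    bad s z T' e c ≤ bad s z T e c :=
  p_frac_mono fun _ h hg => h ⟨hg.1, hg.2.1.trans hT, hg.2.2.trans hT⟩

theorem lt_bad_le (s : ℝ) (z : ℂ) (T e : ℝ) (c : Cfg V q) :
    bad s z T e c ≤ frac (fun h => ¬ dec s z e c h) + 2 * frac fun h => T < hyp (Yc s z c h) := by
  have h1 := lt_frac_sigma c.1 fun h => T < hyp (Yc s z c h)
  have h2 : bad s z T e c ≤ frac (fun h => ¬ dec s z e c h) +
      frac fun h => T < hyp (Yc s z c h) ∨ T < hyp (Yc s z c (c.1 h)) :=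
    p_frac_or_le fun h hh => by
      by_contra hc
      push Not at hc
      exact hh ⟨hc.1, hc.2.1, hc.2.2⟩
  have h3 := p_frac_or (fun h => T < hyp (Yc s z c h)) fun h => T < hyp (Yc s z c (c.1 h))
  linarith

/-- `p` bounds the fraction of good edges coupled to a small set -/
def LtW (s : ℝ) (z : ℂ) (T e ε p : ℝ) (c : Cfg V q) : Prop :=
  ∀ S : Finset V, S.card ≤ 2 * (q + 1) →
    frac (fun h => good s z T e c h ∧ ¬ Dcp (Gr (Hm s c) z) ε S (ends c.1 h)) ≤ p

theorem LtW.nonneg {s : ℝ} {z : ℂ} {T e ε p : ℝ} {c : Cfg V q} (h : LtW s z T e ε p c) : 0 ≤ p :=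
  (p_frac_nonneg _).trans (h ∅ (by simp))

theorem lt_ward (hW : StW) (hZ : StZC) (q : ℕ) : ∃ C : ℝ, 0 ≤ C ∧ ∀ (s : ℝ) (z : ℂ) (V : Type)
    [Fintype V] [DecidableEq V] (c : Cfg V q) (T e ε : ℝ), 0 < z.im → 0 ≤ T → 0 ≤ e → e ≤ 1 / 10 →
    0 < ε → LtW s z T e ε (C * T ^ 3 / (Fintype.card V * z.im * ε ^ 2)) c := by
  obtain ⟨C, hC⟩ := hW
  refine ⟨|C| * (2 * (q + 1)), by positivity, fun s z V _ _ c T e ε hz hT he he' hε S hS => ?_⟩
  refine le_trans (p_frac_mono fun h hh => ⟨lt_good_mono hZ hz he he' le_rfl hh.1, hh.2⟩)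
    ((hC q s z V c S T ε hz hT hε).trans ?_)
  have : (S.card : ℝ) ≤ 2 * (q + 1) := by exact_mod_cast hS
  gcongr
  exact le_abs_self C

/-- the edge `α j` is bad or coupled to the other edges -/
def LtF (s : ℝ) (z : ℂ) (T e ε : ℝ) (c : Cfg V q) (α : Fin (q + 1) → HE V q) (j : Fin (q + 1)) : Prop :=
  ¬ (good s z T e c (α j) ∧
    Dcp (Gr (Hm s c) z) ε (⋃ k ∉ ({j} : Finset (Fin (q + 1))), ends c.1 (α k)) (ends c.1 (α j)))

variable {s : ℝ} {z : ℂ} {T e ε p : ℝ} {c : Cfg V q}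

theorem lt_w_ends (hw : LtW s z T e ε p c) (a : HE V q) :
    frac (fun h => good s z T e c h ∧ ¬ Dcp (Gr (Hm s c) z) ε (ends c.1 a) (ends c.1 h)) ≤ p := by
  have := hw {a.1, (c.1 a).1} (Finset.card_le_two.trans (by omega))
  rwa [Finset.coe_pair] at this

theorem lt_w_oth (hw : LtW s z T e ε p c) (α : Fin (q + 1) → HE V q) (j : Fin (q + 1)) :
    frac (fun h => good s z T e c h ∧ ¬ Dcp (Gr (Hm s c) z) ε
      (⋃ k ∉ ({j} : Finset (Fin (q + 1))), ends c.1 (Function.update α j h k)) (ends c.1 h)) ≤ p := by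
  have h1 := hw ((Finset.univ.erase j).biUnion fun k => {(α k).1, (c.1 (α k)).1}) (by
    refine Finset.card_biUnion_le.trans ?_
    refine (Finset.sum_le_card_nsmul _ _ 2 fun _ _ => Finset.card_le_two).trans ?_
    have := Finset.card_le_univ (Finset.univ.erase j)
    simp only [Fintype.card_fin, smul_eq_mul] at this ⊢
    omega)
  have h2 : ∀ h, (⋃ k ∉ ({j} : Finset (Fin (q + 1))), ends c.1 (Function.update α j h k)) =
      (((Finset.univ.erase j).biUnion fun k => ({(α k).1, (c.1 (α k)).1} : Finset V) : Finset V) :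
        Set V) := fun h => by
    ext v
    simp only [Finset.mem_singleton, Set.mem_iUnion, Finset.coe_biUnion, Finset.coe_pair,
      Finset.mem_coe, Finset.mem_erase, Finset.mem_univ, and_true]
    refine exists_congr fun k => exists_congr fun hk => ?_
    rw [Function.update_of_ne hk]; rfl
  simpa only [h2] using h1

theorem lt_F_cond (hw : LtW s z T e ε p c) (α : Fin (q + 1) → HE V q) (j : Fin (q + 1)) :
    frac (fun h => LtF s z T e ε c (Function.update α j h) j) ≤ bad s z T e c + p := by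
  refine le_trans (p_frac_or_le fun h hh => ?_) (add_le_add le_rfl (lt_w_oth hw α j))
  rw [LtF, Function.update_self] at hh
  tauto

theorem lt_F_le (hw : LtW s z T e ε p c) (j : Fin (q + 1)) :
    frac (fun α => LtF s z T e ε c α j) ≤ bad s z T e c + p :=
  lt_frac_cond1 j (add_nonneg (p_frac_nonneg _) hw.nonneg) fun α => lt_F_cond hw α j

theorem lt_W1 (hw : LtW s z T e ε p c) (j : Fin (q + 1)) :
    frac (fun α : Fin (q + 1) → HE V q => good s z T e c (α j) ∧ LtF s z T e ε c α j) ≤ p := by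
  refine lt_frac_cond1 j hw.nonneg fun α => le_trans (p_frac_mono fun h hh => ?_) (lt_w_oth hw α j)
  rw [LtF, Function.update_self] at hh
  tauto

theorem lt_W2 (hw : LtW s z T e ε p c) {j k : Fin (q + 1)} (hjk : k ≠ j) :
    frac (fun α : Fin (q + 1) → HE V q => good s z T e c (α j) ∧
      ¬ Dcp (Gr (Hm s c) z) ε (ends c.1 (α k)) (ends c.1 (α j))) ≤ p := by
  refine lt_frac_cond1 j hw.nonneg fun α => ?_
  simpa only [Function.update_self, Function.update_of_ne hjk] using lt_w_ends hw (α k)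

theorem lt_bad2 {j k : Fin (q + 1)} (hjk : j ≠ k) :
    frac (fun α : Fin (q + 1) → HE V q => ¬ good s z T e c (α j) ∧ ¬ good s z T e c (α k)) ≤
      bad s z T e c ^ 2 := by
  rw [sq]; exact lt_frac_eval2 hjk (fun h => ¬ good s z T e c h) fun h => ¬ good s z T e c h

theorem lt_exists_third (hq : 2 ≤ q) (i j : Fin (q + 1)) : ∃ k, k ≠ i ∧ k ≠ j := by
  by_contra h
  push Not at h
  have : (Finset.univ : Finset (Fin (q + 1))) ⊆ {i, j} := fun k _ => by
    by_cases hk : k = i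
    · simp [hk]
    · simp [h k hk]
  have h1 := (Finset.card_le_card this).trans Finset.card_le_two
  simp at h1
  omega

/-- two independent edges are coupled -/
theorem lt_fail_pair (hZ : StZC) (hw : LtW s z T e ε p c) (hH : (Hm s c).IsHermitian) :
    frac (fun x : HE V q × HE V q => ¬ Dcp (Gr (Hm s c) z) ε (ends c.1 x.1) (ends c.1 x.2)) ≤
      bad s z T e c ^ 2 + 2 * p := by
  have h1 : frac (fun x : HE V q × HE V q => good s z T e c x.2 ∧
      ¬ Dcp (Gr (Hm s c) z) ε (ends c.1 x.1) (ends c.1 x.2)) ≤ p := by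
    rw [p_frac_prod]; exact p_avg_le hw.nonneg fun a => lt_w_ends hw a
  have h2 : frac (fun x : HE V q × HE V q => good s z T e c x.1 ∧
      ¬ Dcp (Gr (Hm s c) z) ε (ends c.1 x.2) (ends c.1 x.1)) ≤ p := by
    rw [p_frac_prod']; exact p_avg_le hw.nonneg fun a => lt_w_ends hw a
  have h3 := lt_frac_pair (fun h => ¬ good s z T e c h) fun h => ¬ good s z T e c h
  have h4 := p_frac_or_le (p := fun x : HE V q × HE V q =>
      ¬ Dcp (Gr (Hm s c) z) ε (ends c.1 x.1) (ends c.1 x.2))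
    (p₁ := fun x => ¬ good s z T e c x.1 ∧ ¬ good s z T e c x.2)
    (p₂ := fun x => (good s z T e c x.2 ∧ ¬ Dcp (Gr (Hm s c) z) ε (ends c.1 x.1) (ends c.1 x.2)) ∨
      (good s z T e c x.1 ∧ ¬ Dcp (Gr (Hm s c) z) ε (ends c.1 x.2) (ends c.1 x.1))) fun x hx => by
      have : ¬ Dcp (Gr (Hm s c) z) ε (ends c.1 x.2) (ends c.1 x.1) := fun h =>
        hx (hZ.dcp_symm V _ z ε _ _ hH h)
      tauto
  have h5 := h4.trans (add_le_add le_rfl (p_frac_or _ _))
  rw [h3, ← sq] at h5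
  exact h5.trans (add_le_add le_rfl (by linarith))

/-- all edges other than `i` fail -/
theorem lt_fail_b (hq : 2 ≤ q) (hw : LtW s z T e ε p c) (i : Fin (q + 1)) :
    frac (fun α => ∀ j, j ≠ i → LtF s z T e ε c α j) ≤ bad s z T e c ^ 2 + 2 * p := by
  obtain ⟨j, hj, -⟩ := lt_exists_third hq i i
  obtain ⟨k, hk, hkj⟩ := lt_exists_third hq i j
  have h4 := p_frac_or_le (p := fun α => ∀ j, j ≠ i → LtF s z T e ε c α j)
    (p₁ := fun α => ¬ good s z T e c (α k) ∧ ¬ good s z T e c (α j))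
    (p₂ := fun α => (good s z T e c (α j) ∧ LtF s z T e ε c α j) ∨
      (good s z T e c (α k) ∧ LtF s z T e ε c α k)) fun α hα => by
      have h1 := hα j hj
      have h2 := hα k hk
      tauto
  have h5 := h4.trans (add_le_add (lt_bad2 hkj) (p_frac_or _ _))
  linarith [lt_W1 hw j, lt_W1 hw k]

/-- the success event for the `hyp` bound -/
def LtQ (s : ℝ) (z : ℂ) (T e ε b : ℝ) (c : Cfg V q) (α : Fin (q + 1) → HE V q) : Prop :=
  (∀ j, dec s z e c (α j)) ∧ (∀ j, ltB (Yc s z c (c.1 (α j))) ≤ b) ∧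
  (∀ j k, j ≠ k → good s z T e c (α j) ∨ good s z T e c (α k)) ∧
  ∀ j k, k ≠ j → good s z T e c (α j) → Dcp (Gr (Hm s c) z) ε (ends c.1 (α k)) (ends c.1 (α j))

theorem lt_fail_q (hw : LtW s z T e ε p c) (b : ℝ) :
    frac (fun α => ¬ LtQ s z T e ε b c α) ≤ ((q : ℝ) + 1) ^ 2 * bad s z T e c ^ 2 +
      ((q : ℝ) + 1) * frac (fun h => ¬ dec s z e c h) +
      ((q : ℝ) + 1) * frac (fun h => b < ltB (Yc s z c h)) + ((q : ℝ) + 1) ^ 2 * p := by
  have h1 := lt_frac_exists_le (p := fun j (α : Fin (q + 1) → HE V q) => ¬ dec s z e c (α j))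
    fun j => lt_frac_eval j fun h => ¬ dec s z e c h
  have h2 := lt_frac_exists_le
    (p := fun j (α : Fin (q + 1) → HE V q) => b < ltB (Yc s z c (c.1 (α j))))
    fun j => (lt_frac_eval j fun h => b < ltB (Yc s z c (c.1 h))).trans
      (lt_frac_sigma c.1 fun h => b < ltB (Yc s z c h)).le
  have h3 := lt_frac_exists_le (p := fun (x : Fin (q + 1) × Fin (q + 1)) (α : Fin (q + 1) → HE V q) =>
      x.1 ≠ x.2 ∧ ¬ good s z T e c (α x.1) ∧ ¬ good s z T e c (α x.2)) (b := bad s z T e c ^ 2)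
    fun x => by
      by_cases hx : x.1 = x.2
      · rw [p_frac_eq_zero fun _ h => h.1 hx]; positivity
      · exact (p_frac_mono fun _ h => h.2).trans (lt_bad2 hx)
  have h4 := lt_frac_exists_le (p := fun (x : Fin (q + 1) × Fin (q + 1)) (α : Fin (q + 1) → HE V q) =>
      x.2 ≠ x.1 ∧ good s z T e c (α x.1) ∧
        ¬ Dcp (Gr (Hm s c) z) ε (ends c.1 (α x.2)) (ends c.1 (α x.1))) (b := p)
    fun x => by
      by_cases hx : x.2 = x.1
      · rw [p_frac_eq_zero fun _ h => h.1 hx]; exact hw.nonneg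
      · exact (p_frac_mono fun _ h => h.2).trans (lt_W2 hw hx)
  simp only [Fintype.card_prod, Fintype.card_fin, Nat.cast_mul, Nat.cast_add, Nat.cast_one] at h1 h2 h3 h4
  refine le_trans (p_frac_mono fun α hα => ?_) (((p_frac_or _ _).trans (add_le_add
    ((p_frac_or _ _).trans (add_le_add ((p_frac_or _ _).trans (add_le_add h3 h1)) h2)) h4)).trans
      (le_of_eq (by ring)))
  by_contra hc
  push Not at hc
  obtain ⟨⟨⟨c3, c1⟩, c2⟩, c4⟩ := hc
  refine hα ⟨c1, c2, fun j k hjk => ?_, fun j k hjk hg => c4 (j, k) hjk hg⟩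
  by_cases hj : good s z T e c (α j)
  · exact Or.inl hj
  · exact Or.inr (c3 (j, k) hjk hj)

/-- all edges are good and pairwise decoupled -/
def LtA (s : ℝ) (z : ℂ) (T e ε : ℝ) (c : Cfg V q) (α : Fin (q + 1) → HE V q) : Prop :=
  (∀ j, good s z T e c (α j)) ∧
  ∀ j k, k ≠ j → Dcp (Gr (Hm s c) z) ε (ends c.1 (α k)) (ends c.1 (α j))

theorem lt_fail_two (hq : 2 ≤ q) (hw : LtW s z T e ε p c) :
    frac (fun α => (∀ k, LtF s z T e ε c α k) ∧ ¬ LtA s z T e ε c α) ≤
      2 * ((q : ℝ) + 1) ^ 2 * (bad s z T e c + p) ^ 2 := by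
  have hb : 0 ≤ bad s z T e c := p_frac_nonneg _
  have hp := hw.nonneg
  have h1 := lt_frac_exists_le (p := fun i (α : Fin (q + 1) → HE V q) =>
      ¬ good s z T e c (α i) ∧ ∀ k, LtF s z T e ε c α k) (b := (bad s z T e c + p) ^ 2) fun i => by
    obtain ⟨k, hk, -⟩ := lt_exists_third hq i i
    refine (p_frac_mono fun α h => ⟨h.1, h.2 k⟩).trans ((lt_frac_cond k
      (P := fun α => ¬ good s z T e c (α i)) (add_nonneg hb hp)
      (fun α h hh => by simpa only [Function.update_of_ne hk.symm] using hh)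
      fun α => lt_F_cond hw α k).trans ?_)
    have := lt_frac_eval i fun h => ¬ good s z T e c h
    rw [sq]
    exact mul_le_mul_of_nonneg_right (this.trans (le_add_of_nonneg_right hp)) (add_nonneg hb hp)
  have h2 := lt_frac_exists_le (p := fun (x : Fin (q + 1) × Fin (q + 1)) (α : Fin (q + 1) → HE V q) =>
      x.2 ≠ x.1 ∧ (good s z T e c (α x.1) ∧
        ¬ Dcp (Gr (Hm s c) z) ε (ends c.1 (α x.2)) (ends c.1 (α x.1))) ∧ ∀ k, LtF s z T e ε c α k)
      (b := (bad s z T e c + p) ^ 2) fun x => by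
    by_cases hx : x.2 = x.1
    · rw [p_frac_eq_zero fun _ h => h.1 hx]; positivity
    obtain ⟨k, hk1, hk2⟩ := lt_exists_third hq x.1 x.2
    refine (p_frac_mono fun α h => ⟨h.2.1, h.2.2 k⟩).trans ((lt_frac_cond k
      (P := fun α => good s z T e c (α x.1) ∧
        ¬ Dcp (Gr (Hm s c) z) ε (ends c.1 (α x.2)) (ends c.1 (α x.1))) (add_nonneg hb hp)
      (fun α h hh => by
        simpa only [Function.update_of_ne hk1.symm, Function.update_of_ne hk2.symm] using hh)
      fun α => lt_F_cond hw α k).trans ?_)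
    rw [sq]
    exact mul_le_mul_of_nonneg_right ((lt_W2 hw hx).trans (le_add_of_nonneg_left hb))
      (add_nonneg hb hp)
  simp only [Fintype.card_prod, Fintype.card_fin, Nat.cast_mul, Nat.cast_add, Nat.cast_one] at h1 h2
  refine le_trans (p_frac_mono fun α hα => ?_) (((p_frac_or _ _).trans (add_le_add h1 h2)).trans ?_)
  · by_cases hg : ∀ j, good s z T e c (α j)
    · right
      by_contra hc
      refine hα.2 ⟨hg, fun j k hjk => ?_⟩
      by_contra hd
      exact hc ⟨(j, k), hjk, ⟨hg j, hd⟩, hα.1⟩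
    · obtain ⟨i, hi⟩ := not_forall.1 hg
      exact Or.inl ⟨i, hi, hα.1⟩
  · have h3 : (q : ℝ) + 1 ≤ ((q : ℝ) + 1) * (q + 1) := by
      nlinarith [Nat.cast_nonneg (α := ℝ) q]
    nlinarith [mul_le_mul_of_nonneg_right h3 (sq_nonneg (bad s z T e c + p))]

end Crest.Agent.R166
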