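import Crest.Agent.R166.LT.Meas

/-!
# R166/LT/Glue: transfer of tail bounds through the gluing construction
-/

set_option autoImplicit false
set_option linter.unusedSectionVars false

open MeasureTheory ProbabilityTheory Filter Topology Complex
open scoped ENNReal NNReal BigOperators Matrix

noncomputable section

namespace Crest.Agent.R166

variable {q : ℕ}

/-- families of properties of a half-edge -/
abbrev LtFam (q : ℕ) : Type 1 :=
  ∀ (V : Type) [Fintype V] [DecidableEq V], Cfg V q → HE V q → Prop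

/-- invariant measurable families -/
structure LtFam.OK (R : LtFam q) : Prop where
  inv : ∀ (V V' : Type) [Fintype V] [DecidableEq V] [Fintype V'] [DecidableEq V'] (e : V ≃ V')
    (c : Cfg V q) (h : HE V q), R V' (relabel e c) (e h.1, h.2) ↔ R V c h
  meas : ∀ (V : Type) [Fintype V] [DecidableEq V] (h : HE V q), MeasurableSet {c | R V c h}

theorem LtFam.OK.famH {R : LtFam q} (hR : R.OK) : FamH.OK fun V _ _ c h => ind (R V c h) :=
  ⟨fun V V' _ _ _ _ e c h => lt_ind_congr (hR.inv V V' e c h),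
    fun V _ _ h => lt_meas_ind (hR.meas V h)⟩

theorem LtFam.OK.and {R : LtFam q} (hR : R.OK) {A : FamP q}
    (hi : ∀ (V V' : Type) [Fintype V] [DecidableEq V] [Fintype V'] [DecidableEq V'] (e : V ≃ V')
      (c : Cfg V q), A V' (relabel e c) ↔ A V c)
    (hm : ∀ (V : Type) [Fintype V] [DecidableEq V], MeasurableSet {c | A V c}) :
    LtFam.OK fun V _ _ c h => A V c ∧ R V c h :=
  ⟨fun V V' _ _ _ _ e c h => and_congr (hi V V' e c) (hR.inv V V' e c h),
    fun V _ _ h => (hm V).inter (hR.meas V h)⟩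

theorem lt_OK_Y (hK : StKit) (s : ℝ) (z : ℂ) {φ : ℂ → ℝ} (hφ : Measurable φ) (b : ℝ) :
    LtFam.OK (q := q) fun _ _ _ c h => b < φ (Yc s z c h) :=
  ⟨fun V V' _ _ _ _ e c h => by rw [hK.inv_Yc],
    fun V _ _ h => measurableSet_lt measurable_const (hφ.comp (hK.meas_Yc q s z V h))⟩

theorem lt_OK_G (hK : StKit) (s : ℝ) (z : ℂ) (b : ℝ) :
    LtFam.OK (q := q) fun _ _ _ c h => b < (Gr (Hm s c) z h.1 h.1).im :=
  ⟨fun V V' _ _ _ _ e c h => by rw [hK.inv_Gr],
    fun V _ _ h => measurableSet_lt measurable_const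
      (Complex.measurable_im.comp (hK.meas_Gr q s z V _ _))⟩

/-- the gluing transfer principle -/
def LtGX (q : ℕ) (C : ℝ) : Prop :=
  ∀ (π : Measure II) [IsProbabilityMeasure π] (V V' : Type) [Fintype V]
    [DecidableEq V] [Fintype V'] [DecidableEq V'] (R : LtFam q), R.OK → 1 ≤ Fintype.card V →
    Fintype.card V' = Fintype.card V + 2 →
    ∀ (P : Fin (q + 1) → Cfg V q → (Fin (q + 1) → HE V q) → Prop) (g : Cfg V q → ℝ),
    Integrable g (cfgLaw V q π) →
    (∀ i c α w, Disj c.1 α → R (V ⊕ Fin 2) (glueC c α w) (oH V i) → P i c α) →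
    (∀ i c, frac (P i c) ≤ g c) →
    ∫ c, frac (R V' c) ∂cfgLaw V' q π ≤ ∫ c, g c ∂cfgLaw V q π + C / Fintype.card V ∧
    (C ≤ Fintype.card V →
      ∫ c, ind (IsSimple c.1) * frac (R V' c) ∂cfgLaw V' q π ≤ C * ∫ c, g c ∂cfgLaw V q π)

theorem lt_gx (hGX : StGX) (q : ℕ) : ∃ C : ℝ, 1 ≤ C ∧ LtGX q C := by
  obtain ⟨C, hC⟩ := hGX q
  refine ⟨max C 1, le_max_right _ _, fun π _ V V' _ _ _ _ R hR h1 h2 P g hg hP hb => ?_⟩
  obtain ⟨h3, h4⟩ := hC π V V' _ hR.famH h1 h2 fun _ _ _ _ _ => lt_abs_ind_le _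
  have h0 : 0 ≤ ∫ c, g c ∂cfgLaw V q π :=
    integral_nonneg fun c => (p_frac_nonneg _).trans (hb 0 c)
  have h5 : (avg fun i => gE π V fun c α w => ind (R (V ⊕ Fin 2) (glueC c α w) (oH V i))) ≤
      ∫ c, g c ∂cfgLaw V q π :=
    p_avg_le h0 fun i => lt_gE_le π (P i) g hg (fun _ _ _ => lt_ind_nonneg _)
      (fun c α w hd => lt_ind_mono (hP i c α w hd)) (hb i)
  have h6 : 0 ≤ avg fun i => gE π V fun c α w => ind (R (V ⊕ Fin 2) (glueC c α w) (oH V i)) :=
    p_avg_nonneg fun i => integral_nonneg fun c => integral_nonneg fun w =>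
      p_avg_nonneg fun α => by split_ifs; exacts [lt_ind_nonneg _, le_rfl]
  constructor
  · have h7 : C / Fintype.card V ≤ max C 1 / Fintype.card V := by
      gcongr; exact le_max_left _ _
    have h8 := (le_abs_self _).trans h3
    exact (sub_le_iff_le_add'.1 h8).trans (add_le_add h5 h7)
  · intro hc
    refine (h4 ((le_max_left _ _).trans hc) fun _ _ _ _ _ => lt_ind_nonneg _).trans ?_
    exact mul_le_mul (le_max_left _ _) h5 h6 (zero_le_one.trans (le_max_right _ _))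

theorem lt_transfer (hK : StKit) {C : ℝ} (hC : LtGX q C) (π : Measure II) [IsProbabilityMeasure π]
    {s : ℝ} {z : ℂ} {n₁ lm : ℕ} {T₁ θ : ℝ} {Ω : ℕ → FamP q} (hL : Lev q s z n₁ lm T₁ θ Ω)
    {R : LtFam q} (hR : R.OK) {l : ℕ} (hl : l < lm) (hn₁ : 1 ≤ n₁) (V V' : Type) [Fintype V]
    [DecidableEq V] [Fintype V'] [DecidableEq V'] (hn : n₁ ≤ Fintype.card V)
    (hV : Fintype.card V' = Fintype.card V + 2)
    (P : Fin (q + 1) → Cfg V q → (Fin (q + 1) → HE V q) → Prop)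
    (hP : ∀ i c α w, Disj c.1 α → R (V ⊕ Fin 2) (glueC c α w) (oH V i) → P i c α)
    {f₁ f₂ f₃ : Cfg V q → ℝ} (h₁ : LtU f₁) (h₂ : LtU f₂) (h₃ : LtU f₃) {a₁ a₂ a₃ p : ℝ}
    (hp : 0 ≤ p) (hb : ∀ i c, frac (P i c) ≤ a₁ * f₁ c + a₂ * f₂ c + a₃ * f₃ c + p) :
    ltE (cfgLaw V' q π) (Ω l V') (fun c => frac (R V' c)) ≤
      a₁ * ltE (cfgLaw V q π) (Ω (l + 1) V) f₁ + a₂ * ltE (cfgLaw V q π) (Ω (l + 1) V) f₂ +
        a₃ * ltE (cfgLaw V q π) (Ω (l + 1) V) f₃ + p + C / Fintype.card V := by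
  have := hK.law_le q π V
  have hA := hL.meas (l + 1) V
  have i₁ := (h₁.int (cfgLaw V q π)).const_mul a₁
  have i₂ := (h₂.int (cfgLaw V q π)).const_mul a₂
  have i₃ := (h₃.int (cfgLaw V q π)).const_mul a₃
  have hg : Integrable (fun c => ind (Ω (l + 1) V c) * (a₁ * f₁ c + a₂ * f₂ c + a₃ * f₃ c + p))
      (cfgLaw V q π) :=
    (((i₁.add i₂).add i₃).add (integrable_const p)).bdd_mul (c := 1)
      (lt_meas_ind hA).aestronglyMeasurable (ae_of_all _ fun c => lt_abs_ind_le _)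
  have hb' : ∀ i c, frac (fun α => Ω (l + 1) V c ∧ P i c α) ≤
      ind (Ω (l + 1) V c) * (a₁ * f₁ c + a₂ * f₂ c + a₃ * f₃ c + p) := fun i c => by
    rw [lt_frac_const_and]
    exact mul_le_mul_of_nonneg_left (hb i c) (lt_ind_nonneg _)
  have h1 := (hC π V V' _ (hR.and (hL.inv l) (hL.meas l)) (hn₁.trans hn) hV
    (fun i c α => Ω (l + 1) V c ∧ P i c α) _ hg
    (fun i c α w hd h => ⟨hL.unglue l V c α w hl hn hd h.1, hP i c α w hd h.2⟩) hb').1
  simp only [lt_frac_const_and] at h1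
  refine h1.trans (add_le_add ?_ le_rfl)
  refine lt_lin _ hA h₁ h₂ h₃ hp (fun c => (p_frac_nonneg _).trans (hb' 0 c)) fun c => ?_
  nlinarith [mul_le_mul_of_nonneg_right (lt_ind_le_one (Ω (l + 1) V c)) hp]

end Crest.Agent.R166
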