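import Crest.Agent.R166.LT.Avg

/-!
# R166/LT/Meas: measurability, weighted expectations, upper bound for `gE`
-/

set_option autoImplicit false
set_option linter.unusedSectionVars false

open MeasureTheory ProbabilityTheory Filter Topology Complex
open scoped ENNReal NNReal BigOperators Matrix

noncomputable section

namespace Crest.Agent.R166

section gen
variable {X : Type} [MeasurableSpace X]

theorem lt_meas_ind {p : X → Prop} (h : MeasurableSet {c | p c}) : Measurable fun c => ind (p c) := by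
  unfold ind
  exact Measurable.ite h measurable_const measurable_const

theorem lt_meas_avg {H : Type} [Fintype H] {f : X → H → ℝ} (h : ∀ i, Measurable fun c => f c i) :
    Measurable fun c => avg (f c) := by
  unfold avg
  exact (Finset.measurable_sum _ fun i _ => h i).div_const _

/-- measurable functions with values in `[0,1]` -/
structure LtU (f : X → ℝ) : Prop where
  meas : Measurable f
  nonneg : ∀ c, 0 ≤ f c
  le_one : ∀ c, f c ≤ 1

theorem ltU_frac {H : Type} [Fintype H] {p : X → H → Prop} (h : ∀ i, MeasurableSet {c | p c i}) :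
    LtU fun c => frac (p c) :=
  ⟨lt_meas_avg fun i => lt_meas_ind (h i), fun _ => p_frac_nonneg _, fun _ => p_frac_le_one _⟩

theorem ltU_ind {p : X → Prop} (h : MeasurableSet {c | p c}) : LtU fun c => ind (p c) :=
  ⟨lt_meas_ind h, fun _ => lt_ind_nonneg _, fun _ => lt_ind_le_one _⟩

theorem ltU_zero : LtU fun _ : X => (0 : ℝ) := ⟨measurable_const, fun _ => le_rfl, fun _ => zero_le_one⟩

theorem LtU.mul {f g : X → ℝ} (hf : LtU f) (hg : LtU g) : LtU fun c => f c * g c :=
  ⟨hf.meas.mul hg.meas, fun c => mul_nonneg (hf.nonneg c) (hg.nonneg c),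
    fun c => mul_le_one₀ (hf.le_one c) (hg.nonneg c) (hg.le_one c)⟩

theorem LtU.sq {f : X → ℝ} (hf : LtU f) : LtU fun c => f c ^ 2 := by
  simpa only [pow_two] using hf.mul hf

theorem LtU.int {f : X → ℝ} (hf : LtU f) (μ : Measure X) [IsFiniteMeasure μ] : Integrable f μ :=
  Integrable.of_bound hf.meas.aestronglyMeasurable 1 (ae_of_all _ fun c => by
    rw [Real.norm_of_nonneg (hf.nonneg c)]; exact hf.le_one c)

theorem lt_int_const_le (μ : Measure X) [IsZeroOrProbabilityMeasure μ] {b : ℝ} (hb : 0 ≤ b) :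
    ∫ _, b ∂μ ≤ b := by
  rw [integral_const, smul_eq_mul]
  exact mul_le_of_le_one_left hb measureReal_le_one

theorem lt_int_le (μ : Measure X) [IsZeroOrProbabilityMeasure μ] {f : X → ℝ} {b : ℝ} (hb : 0 ≤ b)
    (h0 : ∀ c, 0 ≤ f c) (h : ∀ c, f c ≤ b) : ∫ c, f c ∂μ ≤ b :=
  (integral_mono_of_nonneg (ae_of_all _ h0) (integrable_const b) (ae_of_all _ h)).trans
    (lt_int_const_le μ hb)

/-- weighted expectation -/
def ltE (μ : Measure X) (A : X → Prop) (f : X → ℝ) : ℝ := ∫ c, ind (A c) * f c ∂μ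

theorem ltE_nonneg (μ : Measure X) (A : X → Prop) {f : X → ℝ} (hf : ∀ c, 0 ≤ f c) : 0 ≤ ltE μ A f :=
  integral_nonneg fun c => mul_nonneg (lt_ind_nonneg _) (hf c)

/-- linear upper bounds -/
theorem lt_lin (μ : Measure X) [IsZeroOrProbabilityMeasure μ] {A : X → Prop}
    (hA : MeasurableSet {c | A c}) {g f₁ f₂ f₃ : X → ℝ} (h₁ : LtU f₁) (h₂ : LtU f₂) (h₃ : LtU f₃)
    {a₁ a₂ a₃ p : ℝ} (hp : 0 ≤ p) (h0 : ∀ c, 0 ≤ g c)
    (h : ∀ c, g c ≤ ind (A c) * (a₁ * f₁ c + a₂ * f₂ c + a₃ * f₃ c) + p) :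
    ∫ c, g c ∂μ ≤ a₁ * ltE μ A f₁ + a₂ * ltE μ A f₂ + a₃ * ltE μ A f₃ + p := by
  have i₁ := (((ltU_ind hA).mul h₁).int μ).const_mul a₁
  have i₂ := (((ltU_ind hA).mul h₂).int μ).const_mul a₂
  have i₃ := (((ltU_ind hA).mul h₃).int μ).const_mul a₃
  have := integral_mono_of_nonneg (μ := μ) (f := g) (ae_of_all _ h0)
    (((i₁.add i₂).add i₃).add (integrable_const p))
    (ae_of_all _ fun c => (h c).trans (le_of_eq (by simp only [Pi.add_apply]; ring)))
  refine this.trans ?_
  rw [integral_add' ((i₁.add i₂).add i₃) (integrable_const p), integral_add' (i₁.add i₂) i₃,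
    integral_add' i₁ i₂, integral_const_mul, integral_const_mul, integral_const_mul]
  exact add_le_add le_rfl (lt_int_const_le μ hp)

theorem ltE_mono (μ : Measure X) [IsZeroOrProbabilityMeasure μ] {A A' : X → Prop}
    (hA : MeasurableSet {c | A' c}) {f g : X → ℝ} (hg : LtU g) {a : ℝ} (h0 : ∀ c, 0 ≤ f c)
    (ha : 0 ≤ a) (h : ∀ c, A c → A' c ∧ f c ≤ a * g c) : ltE μ A f ≤ a * ltE μ A' g := by
  have := lt_lin μ hA hg ltU_zero ltU_zero (g := fun c => ind (A c) * f c) (a₁ := a) (a₂ := 0)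
    (a₃ := 0) le_rfl (fun c => mul_nonneg (lt_ind_nonneg _) (h0 c)) fun c => by
      by_cases hc : A c
      · rw [lt_ind_pos hc, lt_ind_pos (h c hc).1]; simpa using (h c hc).2
      · rw [lt_ind_neg hc]
        simpa using mul_nonneg (lt_ind_nonneg _) (mul_nonneg ha (hg.nonneg c))
  simp only [zero_mul, add_zero] at this
  exact this

end gen

section cfg
variable {q : ℕ} {V : Type} [Fintype V] [DecidableEq V]

theorem lt_isClosed_dcp (ε : ℝ) (S S' : Set V) : IsClosed {G : Matrix V V ℂ | Dcp G ε S S'} := by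
  simp only [Dcp, Set.ofPred_forall]
  refine isClosed_iInter fun x => isClosed_iInter fun y => isClosed_iInter fun _ =>
    isClosed_iInter fun _ => isClosed_le ?_ ?_
  · fun_prop
  · unfold imq; fun_prop

theorem lt_meas_pair {p : Pairing V q → Cfg V q → Prop} (h : ∀ σ, MeasurableSet {c | p σ c}) :
    MeasurableSet {c : Cfg V q | p c.1 c} := by
  have : {c : Cfg V q | p c.1 c} = ⋃ σ, (Prod.fst ⁻¹' {σ} ∩ {c | p σ c}) := by
    ext c; simp
  rw [this]
  exact MeasurableSet.iUnion fun σ => (measurable_fst (measurableSet_singleton σ)).inter (h σ)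

theorem lt_meas_dcp (hK : StKit) (s : ℝ) (z : ℂ) (ε : ℝ) (S S' : Pairing V q → Set V) :
    MeasurableSet {c : Cfg V q | Dcp (Gr (Hm s c) z) ε (S c.1) (S' c.1)} := by
  refine lt_meas_pair (p := fun σ c => Dcp (Gr (Hm s c) z) ε (S σ) (S' σ)) fun σ => ?_
  have hm : Measurable fun c : Cfg V q => Gr (Hm s c) z :=
    measurable_pi_lambda _ fun x => measurable_pi_lambda _ fun y => hK.meas_Gr q s z V x y
  exact hm (lt_isClosed_dcp ε (S σ) (S' σ)).measurableSet

theorem ltU_bad (hK : StKit) (s : ℝ) (z : ℂ) (T e : ℝ) : LtU fun c : Cfg V q => bad s z T e c :=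
  ⟨hK.meas_bad q s z T e V, fun _ => p_frac_nonneg _, fun _ => p_frac_le_one _⟩

/-- upper bound for `gE`: drop the condition `Disj` -/
theorem lt_gE_le (π : Measure II) [IsProbabilityMeasure π]
    {f : Cfg V q → (Fin (q + 1) → HE V q) → (Fin 2 → II) → ℝ}
    (P : Cfg V q → (Fin (q + 1) → HE V q) → Prop) (g : Cfg V q → ℝ)
    (hg : Integrable g (cfgLaw V q π)) (hf0 : ∀ c α w, 0 ≤ f c α w)
    (hf : ∀ c α w, Disj c.1 α → f c α w ≤ ind (P c α)) (hP : ∀ c, frac (P c) ≤ g c) :
    gE π V f ≤ ∫ c, g c ∂cfgLaw V q π := by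
  have h0 : ∀ (c : Cfg V q) w, 0 ≤ avg fun α => if Disj c.1 α then f c α w else 0 := fun c w =>
    p_avg_nonneg fun α => by split_ifs; exacts [hf0 _ _ _, le_rfl]
  refine integral_mono_of_nonneg (ae_of_all _ fun c => integral_nonneg (h0 c)) hg
    (ae_of_all _ fun c => ?_)
  refine lt_int_le _ ((p_frac_nonneg _).trans (hP c)) (h0 c) fun w => le_trans ?_ (hP c)
  refine p_avg_mono fun α => ?_
  by_cases h : Disj c.1 α
  · rw [if_pos h]; exact hf c α w h
  · rw [if_neg h]; exact lt_ind_nonneg (P c α)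

end cfg

end Crest.Agent.R166
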