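import Crest.Agent.R166.LT.Tail

/-!
# R166/LT/Rec: the recursion for the weighted fraction of bad edges
-/

set_option autoImplicit false
set_option linter.unusedSectionVars false

open MeasureTheory ProbabilityTheory Filter Topology Complex
open scoped ENNReal NNReal BigOperators Matrix

noncomputable section

namespace Crest.Agent.R166

variable {q : ℕ}

/-- the statement of `lt_dec` -/
def LtD (q : ℕ) (C : ℝ) : Prop :=
  ∀ (π : Measure II) [IsProbabilityMeasure π] (s : ℝ) (z : ℂ) (n₁ lm : ℕ)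
    (T₁ θ : ℝ) (Ω : ℕ → FamP q), Lev q s z n₁ lm T₁ θ Ω → 0 < z.im → 1 ≤ n₁ →
    ∀ (l : ℕ) (T ε : ℝ) (V : Type) [Fintype V] [DecidableEq V], l < lm → n₁ ≤ Fintype.card V →
      1 ≤ T → z.im ≤ T → 0 < ε → ε ≤ 1 / 10 →
      ltE (cfgLaw V q π) (Ω l V) (fun c => frac fun h => ¬ dec s z ε c h) ≤
        2 * ltE (cfgLaw V q π) (Ω (l + 1) V) (fun c => bad s z T (1 / 50) c ^ 2) +
          C * (T ^ 3 / (n₁ * z.im * ε ^ 2))

theorem lt_sq_le (hK : StKit) (π : Measure II) [IsProbabilityMeasure π] {s : ℝ} {z : ℂ}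
    {n₁ lm : ℕ} {T₁ θ : ℝ} {Ω : ℕ → FamP q} (hL : Lev q s z n₁ lm T₁ θ Ω) (hθ : 0 ≤ θ) {l l' : ℕ}
    (hl : l ≤ l') (hl' : l' ≤ lm) {T : ℝ} (hT : T₁ ≤ T) (V : Type) [Fintype V] [DecidableEq V] :
    ltE (cfgLaw V q π) (Ω l V) (fun c => bad s z T (1 / 50) c ^ 2) ≤ θ * betaW π s z (Ω l') T V := by
  have := hK.law_le q π V
  refine ltE_mono _ (hL.meas l' V) (ltU_bad hK s z T (1 / 50)) (fun _ => sq_nonneg _) hθ
    fun c hc => ?_
  have h1 : Ω l' V c := Nat.le_induction hc (fun k _ h => hL.mono k V c h) l' hl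
  refine ⟨h1, ?_⟩
  rw [sq]
  exact mul_le_mul_of_nonneg_right ((lt_bad_mono c hT).trans (hL.small l' V c hl' h1))
    (p_frac_nonneg _)

theorem lt_step (hK : StKit) {Γ ε K CG CD : ℝ} (hC : LtC q Γ ε K CG) (hD : LtD q CD)
    (hq : 2 ≤ q) (π : Measure II) [IsProbabilityMeasure π] {s : ℝ} {z : ℂ} {n₁ lm : ℕ} {T₁ θ : ℝ}
    {Ω : ℕ → FamP q} (hL : Lev q s z n₁ lm T₁ θ Ω) (hz : 0 < z.im) (hn₁ : 1 ≤ n₁) (hθ : 0 ≤ θ)
    {l : ℕ} (hl : l + 2 ≤ lm) {T : ℝ} (hT₁ : 1 ≤ T₁) (hzT : z.im ≤ T₁) (hT : T₁ ≤ T) {M CT : ℝ}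
    (hs : 0 ≤ s) (hs' : s ≤ 1) (hM : ‖z‖ ≤ M)
    (hCT : Γ * (1 + 2 * (M + 1) ^ 2 + 2 * (q + 1) * Γ) ≤ CT) (V : Type) [Fintype V] [DecidableEq V]
    (hn : n₁ + 4 ≤ Fintype.card V) {B : ℝ}
    (hB : ∀ (W : Type) [Fintype W] [DecidableEq W], Fintype.card V ≤ Fintype.card W + 4 →
      betaW π s z (Ω (l + 2)) T W ≤ B) :
    betaW π s z (Ω l) (CT * T) V ≤ (2 + 2 * ((q : ℝ) + 1) ^ 2 + 6 * (q + 1)) * θ * B +
      (2500 * CD * (1 + 2 * (q + 1)) + 2 * (q + 1) * (2 * K + CG) +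
        2 * (((q : ℝ) + 1) ^ 2 * K + CG)) * (T ^ 3 / (n₁ * z.im)) := by
  have := hK.law_le q π V
  obtain ⟨N, hN⟩ : ∃ N, Fintype.card V = N + 4 := ⟨Fintype.card V - 4, by omega⟩
  have hT1 : 1 ≤ T := hT₁.trans hT
  have hzT' : z.im ≤ T := hzT.trans hT
  have hS : ∀ (W : Type) [Fintype W] [DecidableEq W], Fintype.card V ≤ Fintype.card W + 4 →
      ∀ l', l' ≤ l + 2 →
      ltE (cfgLaw W q π) (Ω l' W) (fun c => bad s z T (1 / 50) c ^ 2) ≤ θ * B :=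
    fun W _ _ hW l' hl' => (lt_sq_le hK π hL hθ hl' hl hT W).trans
      (mul_le_mul_of_nonneg_left (hB W hW) hθ)
  have hu : T ^ 3 / (n₁ * z.im * (1 / 50) ^ 2) = 2500 * (T ^ 3 / (n₁ * z.im)) := by
    have : (0 : ℝ) < n₁ := by exact_mod_cast hn₁
    field_simp; norm_num
  have h0 : betaW π s z (Ω l) (CT * T) V ≤
      1 * ltE (cfgLaw V q π) (Ω l V) (fun c => frac fun h => ¬ dec s z (1 / 50) c h) +
      2 * ltE (cfgLaw V q π) (Ω l V) (fun c => frac fun h => CT * T < hyp (Yc s z c h)) +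
      0 * ltE (cfgLaw V q π) (Ω l V) (fun _ => 0) + 0 :=
    lt_lin _ (hL.meas l V) (ltU_frac fun h => (hK.meas_dec q s z (1 / 50) V h).compl)
      (ltU_frac fun h => (lt_OK_Y hK s z lt_meas_hyp (CT * T)).meas V h) ltU_zero le_rfl
      (fun c => mul_nonneg (lt_ind_nonneg _) (p_frac_nonneg _)) fun c => by
        simp only [one_mul, zero_mul, add_zero]
        exact mul_le_mul_of_nonneg_left (lt_bad_le s z (CT * T) (1 / 50) c) (lt_ind_nonneg (Ω l V c))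
  have h1 := hD π s z n₁ lm T₁ θ Ω hL hz hn₁ l T (1 / 50) V (by omega) (by omega) hT1 hzT'
    (by norm_num) (by norm_num)
  have h2 := hD π s z n₁ lm T₁ θ Ω hL hz hn₁ (l + 1) T (1 / 50) (Fin (N + 2)) (by omega)
    (by simp; omega) hT1 hzT' (by norm_num) (by norm_num)
  have h3 := lt_tail_Q hK hC π hL hz hn₁ (l := l) (by omega) hT1 hzT' (Fin (N + 2)) V
    (by simp; omega) (by simp [hN]) hs hs' hM hCT
  have h4 := lt_tail_B hK hC hq π hL hz hn₁ (l := l + 1) (by omega) hT1 hzT' (Fin N) (Fin (N + 2))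
    (by simp; omega) (by simp)
  have s1 := hS V (by omega) (l + 1) (by omega)
  have s2 := hS (Fin (N + 2)) (by simp; omega) (l + 1) (by omega)
  have s3 := hS (Fin (N + 2)) (by simp; omega) (l + 1 + 1) (by omega)
  have s4 := hS (Fin N) (by simp; omega) (l + 1 + 1) (by omega)
  rw [hu] at h1 h2
  have hd : (0 : ℝ) ≤ (q : ℝ) + 1 := by positivity
  have e2 := mul_le_mul_of_nonneg_left s2 (sq_nonneg ((q : ℝ) + 1))
  have e3 := mul_le_mul_of_nonneg_left (h2.trans (add_le_add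
    (mul_le_mul_of_nonneg_left s3 zero_le_two) le_rfl)) hd
  have e4 := mul_le_mul_of_nonneg_left (h4.trans (add_le_add s4 le_rfl)) hd
  linarith

theorem lt_iter (hK : StKit) (π : Measure II) [IsProbabilityMeasure π] {s : ℝ} {z : ℂ} {n₁ lm : ℕ}
    {T₁ θ : ℝ} {Ω : ℕ → FamP q} (hz : 0 < z.im) (hθ : 0 ≤ θ) (hT₁ : 1 ≤ T₁) {Cp CT : ℝ}
    (hCp : 1 ≤ Cp) (hCT : 1 ≤ CT) (hθ' : Cp * θ ≤ 1 / 2)
    (hstep : ∀ (l : ℕ) (T B : ℝ) (V : Type) [Fintype V] [DecidableEq V], l + 2 ≤ lm → T₁ ≤ T →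
      n₁ + 4 ≤ Fintype.card V → 0 ≤ B →
      (∀ (W : Type) [Fintype W] [DecidableEq W], Fintype.card V ≤ Fintype.card W + 4 →
        betaW π s z (Ω (l + 2)) T W ≤ B) →
      betaW π s z (Ω l) (CT * T) V ≤ Cp * θ * B + Cp / 2 * (T ^ 3 / (n₁ * z.im)))
    (J : ℕ) : ∀ (l : ℕ) (V : Type) [Fintype V] [DecidableEq V], l + 2 * J ≤ lm →
      n₁ + 4 * J ≤ Fintype.card V → betaW π s z (Ω l) (CT ^ J * T₁) V ≤
        (Cp * θ) ^ J + Cp * (CT ^ J * T₁) ^ 3 / (n₁ * z.im) := by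
  induction J with
  | zero =>
    intro l V _ _ _ _
    have := hK.law_le q π V
    refine le_trans (lt_int_le _ zero_le_one
      (fun c => mul_nonneg (lt_ind_nonneg _) (p_frac_nonneg _))
      fun c => mul_le_one₀ (lt_ind_le_one _) (p_frac_nonneg _) (p_frac_le_one _)) ?_
    rw [pow_zero]
    exact le_add_of_nonneg_right (by positivity)
  | succ J ih =>
    intro l V _ _ hl hn
    have h1 : 1 ≤ CT ^ J := one_le_pow₀ hCT
    have hT : T₁ ≤ CT ^ J * T₁ := le_mul_of_one_le_left (by linarith) h1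
    have h2 := hstep l (CT ^ J * T₁) _ V (by omega) hT (by omega) (by positivity)
      fun W _ _ hW => ih (l + 2) W (by omega) (by omega)
    have h3 : CT ^ (J + 1) * T₁ = CT * (CT ^ J * T₁) := by ring
    rw [h3]
    refine h2.trans ?_
    set T := CT ^ J * T₁
    have h4 : T ^ 3 / (n₁ * z.im) ≤ (CT * T) ^ 3 / (n₁ * z.im) := by
      have : T ≤ CT * T := le_mul_of_one_le_left (by linarith) hCT
      gcongr
    have h5 : 0 ≤ T ^ 3 / (n₁ * z.im) := by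
      have : 0 ≤ T := by linarith
      positivity
    rw [mul_div_assoc, mul_div_assoc, pow_succ (Cp * θ)]
    have h6 := mul_le_mul_of_nonneg_right hθ' (mul_nonneg (by linarith : 0 ≤ Cp) h5)
    have h7 := mul_le_mul_of_nonneg_left h4 (by linarith : 0 ≤ Cp)
    linarith

end Crest.Agent.R166
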