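import Crest.Agent.R166.LT.Glue
import Crest.Agent.R166.LT.Dec

/-!
# R166/LT/Tail: one-step tail bounds at the glued vertex
-/

set_option autoImplicit false
set_option linter.unusedSectionVars false

open MeasureTheory ProbabilityTheory Filter Topology Complex
open scoped ENNReal NNReal BigOperators Matrix

noncomputable section

namespace Crest.Agent.R166

variable {q : ℕ}

/-- the constants of the block -/
structure LtC (q : ℕ) (Γ ε K CG : ℝ) : Prop where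
  hΓ : 2 ≤ Γ
  hK : 0 ≤ K
  hCG : 1 ≤ CG
  succ : LtS q Γ ε
  gx : LtGX q CG
  ward : ∀ (s : ℝ) (z : ℂ) (V : Type) [Fintype V] [DecidableEq V] (c : Cfg V q) (T e m : ℝ),
    0 < z.im → 0 ≤ T → 0 ≤ e → e ≤ 1 / 10 → 0 < m → m ≤ Fintype.card V →
    LtW s z T e ε (K * (T ^ 3 / (m * z.im))) c

theorem lt_consts (hGX : StGX) (hW : StW) (hGL : StGL) (hZ : StZC) (q : ℕ) (hq : 2 ≤ q) :
    ∃ Γ ε K CG : ℝ, LtC q Γ ε K CG := by
  obtain ⟨Γ, ε, hΓ, hε, hS⟩ := lt_succ hGL hZ q hq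
  obtain ⟨CG, hCG, hG⟩ := lt_gx hGX q
  obtain ⟨CW, hCW, hw⟩ := lt_ward hW hZ q
  refine ⟨Γ, ε, CW / ε ^ 2, CG, hΓ, by positivity, hCG, hS, hG,
    fun s z V _ _ c T e m hz hT he he' hm hmV S hS => (hw s z V c T e ε hz hT he he' hε S hS).trans ?_⟩
  calc CW * T ^ 3 / (Fintype.card V * z.im * ε ^ 2)
      = CW / ε ^ 2 * (T ^ 3 / (Fintype.card V * z.im)) := by
        have : (0 : ℝ) < Fintype.card V := hm.trans_le hmV
        field_simp
    _ ≤ CW / ε ^ 2 * (T ^ 3 / (m * z.im)) := by gcongr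

theorem lt_meas_B : Measurable ltB := by unfold ltB; fun_prop

theorem lt_meas_hyp : Measurable hyp := by unfold hyp; fun_prop

section
variable (hK : StKit) {Γ ε K CG : ℝ} (hC : LtC q Γ ε K CG) (hq : 2 ≤ q) (π : Measure II)
  [IsProbabilityMeasure π] {s : ℝ} {z : ℂ} {n₁ lm : ℕ} {T₁ θ : ℝ} {Ω : ℕ → FamP q}
  (hL : Lev q s z n₁ lm T₁ θ Ω) (hz : 0 < z.im) (hn₁ : 1 ≤ n₁) {l : ℕ} (hl : l < lm) {T : ℝ}
  (hT : 1 ≤ T) (hzT : z.im ≤ T) (V V' : Type) [Fintype V] [DecidableEq V] [Fintype V']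
  [DecidableEq V'] (hn : n₁ ≤ Fintype.card V) (hV : Fintype.card V' = Fintype.card V + 2)

include hC hz hn₁ hT hzT hn in
theorem lt_CG_le : CG / Fintype.card V ≤ CG * (T ^ 3 / (n₁ * z.im)) := by
  have := lt_inv_le (n := Fintype.card V) (n₁ := n₁) (by exact_mod_cast hn₁) (by exact_mod_cast hn)
    hz hzT hT one_pos le_rfl
  rw [one_pow, mul_one] at this
  rw [div_eq_mul_one_div]
  exact mul_le_mul_of_nonneg_left this (by linarith [hC.hCG])

include hC hz hn₁ hT hn in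
theorem lt_ward1 (c : Cfg V q) : LtW s z T (1 / 50) ε (K * (T ^ 3 / (n₁ * z.im))) c :=
  hC.ward s z V c T _ n₁ hz (by linarith) (by norm_num) (by norm_num) (by exact_mod_cast hn₁)
    (by exact_mod_cast hn)

include hK hC hq hL hz hn₁ hl hT hzT hn hV in
theorem lt_tail_B :
    ltE (cfgLaw V' q π) (Ω l V') (fun c => frac fun h => Γ * T < ltB (Yc s z c h)) ≤
      ltE (cfgLaw V q π) (Ω (l + 1) V) (fun c => bad s z T (1 / 50) c ^ 2) +
        (2 * K + CG) * (T ^ 3 / (n₁ * z.im)) := by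
  have h1 := lt_transfer hK hC.gx π hL (lt_OK_Y hK s z lt_meas_B (Γ * T)) hl hn₁ V V' hn hV
    (fun i c α => ∀ j, j ≠ i → LtF s z T (1 / 50) ε c α j)
    (fun i c α w hd h j hj => by
      by_contra hF
      exact h.not_ge (hC.succ.b s z V c α w T _ hz (by norm_num) (by norm_num) hd i j hj hF))
    (ltU_bad hK s z T (1 / 50)).sq ltU_zero ltU_zero (a₁ := 1) (a₂ := 0) (a₃ := 0)
    (p := 2 * (K * (T ^ 3 / (n₁ * z.im)))) (by have := hC.hK; positivity) fun i c => by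
      simpa only [one_mul, zero_mul, add_zero] using lt_fail_b hq (lt_ward1 hC hz hn₁ hT V hn c) i
  linarith [lt_CG_le hC hz hn₁ hT hzT V hn]

include hK hC hL hz hn₁ hl hT hzT hn hV in
theorem lt_tail_G :
    ltE (cfgLaw V' q π) (Ω l V') (fun c => frac fun v => Γ * T < (Gr (Hm s c) z v v).im) ≤
      ltE (cfgLaw V q π) (Ω (l + 1) V) (fun c => bad s z T (1 / 50) c) +
        (K + CG) * (T ^ 3 / (n₁ * z.im)) := by
  have h1 := lt_transfer hK hC.gx π hL (lt_OK_G hK s z (Γ * T)) hl hn₁ V V' hn hV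
    (fun _ c α => LtF s z T (1 / 50) ε c α 0)
    (fun i c α w hd h => by
      by_contra hF
      exact h.not_ge (hC.succ.d1 s z V c α w T _ hz (by norm_num) (by norm_num) hd 0 hF))
    (ltU_bad hK s z T (1 / 50)) ltU_zero ltU_zero (a₁ := 1) (a₂ := 0) (a₃ := 0)
    (p := K * (T ^ 3 / (n₁ * z.im))) (by have := hC.hK; positivity) fun i c => by
      simpa only [one_mul, zero_mul, add_zero] using lt_F_le (lt_ward1 hC hz hn₁ hT V hn c) 0
  have h2 : (fun c : Cfg V' q => frac fun h : HE V' q => Γ * T < (Gr (Hm s c) z h.1 h.1).im) =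
      fun c => frac fun v => Γ * T < (Gr (Hm s c) z v v).im :=
    funext fun c => lt_frac_fst fun v => Γ * T < (Gr (Hm s c) z v v).im
  rw [h2] at h1
  linarith [lt_CG_le hC hz hn₁ hT hzT V hn]

include hK hC hL hz hn₁ hl hT hzT hn hV in
theorem lt_tail_Q {M CT : ℝ} (hs : 0 ≤ s) (hs' : s ≤ 1) (hM : ‖z‖ ≤ M)
    (hCT : Γ * (1 + 2 * (M + 1) ^ 2 + 2 * (q + 1) * Γ) ≤ CT) :
    ltE (cfgLaw V' q π) (Ω l V') (fun c => frac fun h => CT * T < hyp (Yc s z c h)) ≤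
      ((q : ℝ) + 1) ^ 2 * ltE (cfgLaw V q π) (Ω (l + 1) V) (fun c => bad s z T (1 / 50) c ^ 2) +
      ((q : ℝ) + 1) * ltE (cfgLaw V q π) (Ω (l + 1) V)
        (fun c => frac fun h => ¬ dec s z (1 / 50) c h) +
      ((q : ℝ) + 1) * ltE (cfgLaw V q π) (Ω (l + 1) V)
        (fun c => frac fun h => Γ * T < ltB (Yc s z c h)) +
      (((q : ℝ) + 1) ^ 2 * K + CG) * (T ^ 3 / (n₁ * z.im)) := by
  have hΓ := hC.hΓ
  have h1 := lt_transfer hK hC.gx π hL (lt_OK_Y hK s z lt_meas_hyp (CT * T)) hl hn₁ V V' hn hV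
    (fun _ c α => ¬ LtQ s z T (1 / 50) ε (Γ * T) c α)
    (fun i c α w hd h hQ => h.not_ge ((hC.succ.h s z V c α w T _ _ M hz (by norm_num) (by norm_num)
      hd hs hs' hM (by positivity) hQ i).trans (by
        have := mul_le_mul_of_nonneg_right hCT (by linarith : 0 ≤ T)
        linarith)))
    (f₂ := fun c => frac fun h => ¬ dec s z (1 / 50) c h)
    (f₃ := fun c => frac fun h => Γ * T < ltB (Yc s z c h))
    (ltU_bad hK s z T (1 / 50)).sq
    (ltU_frac fun h => (hK.meas_dec q s z (1 / 50) V h).compl)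
    (ltU_frac fun h => (lt_OK_Y hK s z lt_meas_B (Γ * T)).meas V h)
    (p := ((q : ℝ) + 1) ^ 2 * (K * (T ^ 3 / (n₁ * z.im)))) (by have := hC.hK; positivity)
    fun i c => lt_fail_q (lt_ward1 hC hz hn₁ hT V hn c) (Γ * T)
  linarith [lt_CG_le hC hz hn₁ hT hzT V hn]

end

end Crest.Agent.R166
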